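import Crest.Agent.R258.Data

/-! Row 258: Čech computation for symmetric powers of `F_N`. -/

set_option autoImplicit false
set_option linter.unusedSimpArgs false
set_option linter.unusedVariables false

noncomputable section

namespace Crest.Agent.R258
open MvPolynomial

abbrev Lam : Type := AddMonoidAlgebra ℂ (ℤ × ℤ)
abbrev TT : Type := MvPolynomial (Fin 2) Lam

def mono (s t : ℤ) : Lam := AddMonoidAlgebra.single (s, t) 1

theorem mono_mul (s t s' t' : ℤ) : mono s t * mono s' t' = mono (s + s') (t + t') := by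
  simp [mono, AddMonoidAlgebra.single_mul_single]

theorem mono_zero : mono 0 0 = 1 := rfl

theorem mono_pow (s t : ℤ) (n : ℕ) : mono s t ^ n = mono (n * s) (n * t) := by
  induction n with
  | zero => simp [mono_zero]
  | succ n ih => rw [pow_succ, ih, mono_mul]; congr 1 <;> push_cast <;> ring

abbrev Sup (S : Set (ℤ × ℤ)) : Submodule ℂ Lam := AddMonoidAlgebra.supported ℂ ℂ S

theorem sup_mul {S S' S'' : Set (ℤ × ℤ)} {u v : Lam} (hu : u ∈ Sup S) (hv : v ∈ Sup S')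
    (h : ∀ a ∈ S, ∀ b ∈ S', a + b ∈ S'') : u * v ∈ Sup S'' := by
  classical
  rw [AddMonoidAlgebra.mem_supported] at *
  intro e he
  obtain ⟨a, ha, b, hb, rfl⟩ :=
    Finset.mem_add.1 (AddMonoidAlgebra.support_coeff_mul_subset u v he)
  exact h a (hu ha) b (hv hb)

theorem mono_mem {S : Set (ℤ × ℤ)} {s t : ℤ} (h : (s, t) ∈ S) : mono s t ∈ Sup S := by
  rw [Sup, AddMonoidAlgebra.supported_eq_span_single]
  exact Submodule.subset_span ⟨_, h, rfl⟩

theorem sup_le' {S : Set (ℤ × ℤ)} {W : Submodule ℂ Lam} (h : ∀ s t, (s, t) ∈ S → mono s t ∈ W) :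
    Sup S ≤ W := by
  rw [Sup, AddMonoidAlgebra.supported_eq_span_single, Submodule.span_le]
  rintro _ ⟨⟨s, t⟩, hs, rfl⟩
  exact h s t hs

/-- Sections of `O(c,d)` over `ℙ¹ × U_I`. -/
def B (I : Fin 3) (c d : ℤ) : Submodule ℂ Lam :=
  Sup {e | 0 ≤ e.1 ∧ e.1 ≤ c ∧ (I = 0 → 0 ≤ e.2) ∧ (I = 1 → e.2 ≤ d)}

theorem B_mul {I : Fin 3} {c d c' d' c'' d'' : ℤ} {u v : Lam} (hu : u ∈ B I c d)
    (hv : v ∈ B I c' d') (hc : c + c' ≤ c'') (hd : I = 1 → d + d' ≤ d'') : u * v ∈ B I c'' d'' := by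
  refine sup_mul hu hv ?_
  rintro ⟨a1, a2⟩ ⟨h1, h2, h3, h4⟩ ⟨b1, b2⟩ ⟨k1, k2, k3, k4⟩
  simp only [Set.mem_ofPred_eq, Prod.mk_add_mk] at *
  refine ⟨by omega, by omega, fun h => ?_, fun h => ?_⟩
  · have := h3 h; have := k3 h; omega
  · have := h4 h; have := k4 h; have := hd h; omega

theorem mono_B {I : Fin 3} {c d s t : ℤ} (h1 : 0 ≤ s) (h2 : s ≤ c) (h3 : I = 0 → 0 ≤ t)
    (h4 : I = 1 → t ≤ d) : mono s t ∈ B I c d := mono_mem ⟨h1, h2, h3, h4⟩

theorem one_B (I : Fin 3) : (1 : Lam) ∈ B I 0 0 :=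
  mono_B le_rfl le_rfl (fun _ => le_rfl) (fun _ => le_rfl)

theorem B_mono {I : Fin 3} {c d c' d' : ℤ} {u : Lam} (hu : u ∈ B I c d) (hc : c ≤ c')
    (hd : I = 1 → d ≤ d') : u ∈ B I c' d' := by
  simpa using B_mul hu (one_B I) (c'' := c') (d'' := d') (by omega) (by simpa using hd)

theorem B_two {I : Fin 3} {c d : ℤ} (d' : ℤ) {u : Lam} (hu : u ∈ B I c d) : u ∈ B 2 c d' :=
  by
  refine AddMonoidAlgebra.supported_mono ?_ hu
  intro e he
  exact ⟨he.1, he.2.1, by simp, by simp⟩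

theorem B_le {I : Fin 3} {c d : ℤ} {W : Submodule ℂ Lam}
    (h : ∀ s t, 0 ≤ s → s ≤ c → (I = 0 → 0 ≤ t) → (I = 1 → t ≤ d) → mono s t ∈ W) :
    B I c d ≤ W := sup_le' fun s t hs => h s t hs.1 hs.2.1 hs.2.2.1 hs.2.2.2

theorem B_split {c d d' : ℤ} (hd : -1 ≤ d) {u : Lam} (hu : u ∈ B 2 c d') :
    ∃ u₀ ∈ B 0 c d, ∃ u₁ ∈ B 1 c d, u₀ + u₁ = u := by
  rw [← Submodule.mem_sup]
  refine B_le (fun s t h1 h2 _ _ => ?_) hu
  by_cases ht : 0 ≤ t
  · exact Submodule.mem_sup_left (mono_B h1 h2 (fun _ => ht) (by simp))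
  · exact Submodule.mem_sup_right (mono_B h1 h2 (by simp) (fun _ => by omega))

theorem B_shift {c c' K : ℤ} {u : Lam} (hu : u ∈ B 2 c 0) (hK : mono K 0 * u ∈ B 2 c' 0) :
    u ∈ B 2 (c' - K) 0 := by
  have h1 : mono (-K) 0 * (mono K 0 * u) ∈ Sup {e | e.1 ≤ c' - K} := by
    refine sup_mul (mono_mem (S := {(-K, 0)}) rfl) hK ?_
    rintro _ rfl ⟨b1, b2⟩ ⟨k1, k2, _⟩
    simp only [Set.mem_ofPred_eq, Prod.mk_add_mk] at *
    omega
  rw [← mul_assoc, mono_mul, neg_add_cancel, add_zero, mono_zero, one_mul] at h1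
  rw [B, AddMonoidAlgebra.mem_supported] at *
  intro e he
  exact ⟨(hu he).1, h1 he, by simp, by simp⟩

def omL : Lam := algebraMap ℂ Lam om

theorem omL_sq : omL ^ 2 = omL - 1 := by
  rw [omL, ← map_pow, om_sq, map_sub, map_one]

def xL (N : ℕ) : Fin 2 → Lam := ![1, mono N 0]
def yL (N : ℕ) : Fin 2 → Lam := ![1, mono 0 N]

def lam {k l : ℕ} (P : BiF k l) (N : ℕ) : Lam := P.ev omL (xL N) (yL N)

theorem lam_B {k l : ℕ} (P : BiF k l) (N : ℕ) (I : Fin 3) :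
    lam P N ∈ B I (k * N) (l * N) := by
  refine P.ev_ind _ _ _ (B I (k * N) (l * N)).toAddSubmonoid fun a b i j hi hj => ?_
  have : BiF.tm k l omL (xL N) (yL N) (a, b, i, j) =
      ((a : ℂ) + (b : ℂ) * om) • mono (i * N) (j * N) := by
    simp only [BiF.tm, xL, yL, Matrix.cons_val_zero, Matrix.cons_val_one, one_pow, one_mul,
      mono_pow, mono_mul, mul_zero, add_zero, zero_add, Algebra.smul_def, omL, map_add, map_mul,
      map_intCast]
  rw [Submodule.mem_toAddSubmonoid, this]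
  have hi' : (i : ℤ) ≤ k := by exact_mod_cast hi
  have hj' : (j : ℤ) ≤ l := by exact_mod_cast hj
  refine Submodule.smul_mem _ _ (mono_B (by positivity) ?_ (fun _ => by positivity) fun _ => ?_)
  · exact mul_le_mul_of_nonneg_right hi' (by positivity)
  · exact mul_le_mul_of_nonneg_right hj' (by positivity)

section Main
variable (N : ℕ)

def bI (I : Fin 3) : Fin 2 := if I = 1 then 1 else 0
def yk (I : Fin 3) : Lam := if I = 1 then mono 0 (-(8 * N)) else 1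
def ff : Lam := lam fT N
def th (I : Fin 3) : Lam := lam (pT (bI I)) N * yk N I
def wv : Lam := lam wT N * mono 0 (-(8 * N))
def be (I : Fin 3) : TT := if I = 1 then X 1 - C (wv N) * X 0 else X 1
def s2 : TT := C (ff N) * X 1 - C (th N 0) * X 0

theorem yk_mul (I : Fin 3) : yL N (bI I) ^ 8 * yk N I = 1 := by
  by_cases h : I = 1
  · simp [h, bI, yk, yL, mono_pow, mono_mul, mono_zero]
  · simp [h, bI, yk, yL]

theorem yk_B (I : Fin 3) : yk N I ∈ B I 0 (-(8 * N)) := by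
  by_cases h : I = 1
  · simp only [yk, h, if_true]
    exact mono_B le_rfl le_rfl (by simp) (fun _ => le_rfl)
  · simp only [yk, h, if_false]
    exact B_mono (one_B I) le_rfl (fun h' => absurd h' h)

theorem ff_B (I : Fin 3) : ff N ∈ B I (3 * N) (3 * N) := lam_B fT N I

theorem th_B (I : Fin 3) : th N I ∈ B I (6 * N) (-(6 * N)) :=
  B_mul (lam_B _ N I) (yk_B N I) (by push_cast; omega) (fun _ => by push_cast; omega)

theorem wv_B (d : ℤ) : wv N ∈ B 2 (3 * N) d :=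
  B_mul (lam_B _ N 2) (mono_B (d := 0) le_rfl le_rfl (by simp) (by simp)) (by push_cast; omega)
    (by simp)

theorem th_rel : th N 0 - ff N * wv N = th N 1 := by
  have h := id_w omL_sq (xL N) (yL N)
  have h1 := yk_mul N 1
  simp only [th, ff, wv, lam, bI, yk, pT, yL] at *
  simp only [if_true, Matrix.cons_val_one, Matrix.cons_val_zero, zero_ne_one, if_false, one_pow,
    one_mul, mul_one, Matrix.cons_val_fin_one] at *
  linear_combination (mono 0 (-(8 * N))) * h - (p0T.ev omL (xL N) ![1, mono 0 N]) * h1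

theorem th_two : th N 2 = th N 0 := by
  simp [th, bI, yk]

theorem xrel (a : Fin 2) (I : Fin 3) : xL N a ^ 8 =
    th N I * lam (qT a) N + ff N * (lam (rT a (bI I)) N * yk N I) := by
  have h := id_r omL_sq (xL N) (yL N) a (bI I)
  have h1 := yk_mul N I
  simp only [th, ff, lam]
  linear_combination (yk N I) * h - (xL N a ^ 8) * h1

theorem s2_eq (I : Fin 3) : s2 N = C (ff N) * be N I - C (th N I) * X 0 := by
  by_cases h : I = 1
  · subst h
    simp only [s2, be, if_true, ← th_rel, map_sub, map_mul]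
    ring
  · have : th N I = th N 0 := by simp [th, bI, yk, h]
    simp [s2, be, h, this]

/-- Sections of `S^m F_N (c,d)` over `ℙ¹ × U_I`. -/
def A (I : Fin 3) : ℕ → ℤ → ℤ → TT → Prop
  | 0, c, d, Δ => ∃ u ∈ B I c d, Δ = C u
  | m + 1, c, d, Δ => ∃ Δ₁ Δ₂, A I m (c + 3 * N) (d - 3 * N) Δ₁ ∧ A I m c (d + 6 * N) Δ₂ ∧
      Δ = X 0 * Δ₁ + be N I * Δ₂

variable {N}

theorem A_zero (I : Fin 3) (m : ℕ) (c d : ℤ) : A N I m c d 0 := by
  induction m generalizing c d with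
  | zero => exact ⟨0, zero_mem _, by simp⟩
  | succ m ih => exact ⟨0, 0, ih _ _, ih _ _, by simp⟩

theorem A_add {I : Fin 3} {m : ℕ} {c d : ℤ} {Δ Δ' : TT} (h : A N I m c d Δ) (h' : A N I m c d Δ') :
    A N I m c d (Δ + Δ') := by
  induction m generalizing c d Δ Δ' with
  | zero =>
    obtain ⟨u, hu, rfl⟩ := h
    obtain ⟨v, hv, rfl⟩ := h'
    exact ⟨u + v, add_mem hu hv, by simp⟩
  | succ m ih =>
    obtain ⟨a, b, ha, hb, rfl⟩ := h
    obtain ⟨a', b', ha', hb', rfl⟩ := h'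
    exact ⟨_, _, ih ha ha', ih hb hb', by ring⟩

theorem A_mul {I : Fin 3} {m : ℕ} {c d c' d' c'' d'' : ℤ} {u : Lam} {Δ : TT} (hu : u ∈ B I c' d')
    (h : A N I m c d Δ) (hc : c' + c ≤ c'') (hd : I = 1 → d' + d ≤ d'') :
    A N I m c'' d'' (C u * Δ) := by
  induction m generalizing c d c'' d'' Δ with
  | zero =>
    obtain ⟨v, hv, rfl⟩ := h
    exact ⟨u * v, B_mul hu hv hc hd, by simp⟩
  | succ m ih =>
    obtain ⟨a, b, ha, hb, rfl⟩ := h
    exact ⟨_, _, ih ha (by omega) (fun h => by have := hd h; omega),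
      ih hb (by omega) (fun h => by have := hd h; omega), by ring⟩

theorem A_mono {I : Fin 3} {m : ℕ} {c d c' d' : ℤ} {Δ : TT} (h : A N I m c d Δ) (hc : c ≤ c')
    (hd : I = 1 → d ≤ d') : A N I m c' d' Δ := by
  simpa using A_mul (one_B I) h (c'' := c') (d'' := d') (by omega) (by simpa using hd)

theorem A_neg {I : Fin 3} {m : ℕ} {c d : ℤ} {Δ : TT} (h : A N I m c d Δ) : A N I m c d (-Δ) := by
  have := A_mul (neg_mem (one_B I)) h (c'' := c) (d'' := d) (by omega) (by simp)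
  have e : -Δ = C (-1) * Δ := by rw [map_neg, map_one]; ring
  rwa [e]

theorem A_sub {I : Fin 3} {m : ℕ} {c d : ℤ} {Δ Δ' : TT} (h : A N I m c d Δ) (h' : A N I m c d Δ') :
    A N I m c d (Δ - Δ') := by
  rw [sub_eq_add_neg]; exact A_add h (A_neg h')

theorem A_a {I : Fin 3} {m : ℕ} {c d : ℤ} {Δ : TT} (h : A N I m (c + 3 * N) (d - 3 * N) Δ) :
    A N I (m + 1) c d (X 0 * Δ) := ⟨Δ, 0, h, A_zero _ _ _ _, by simp⟩

theorem A_be {I : Fin 3} {m : ℕ} {c d : ℤ} {Δ : TT} (h : A N I m c (d + 6 * N) Δ) :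
    A N I (m + 1) c d (be N I * Δ) := ⟨0, Δ, A_zero _ _ _ _, h, by simp⟩

theorem A_s2 {I : Fin 3} {m : ℕ} {c d : ℤ} {Δ : TT} (h : A N I m (c - 3 * N) (d + 3 * N) Δ) :
    A N I (m + 1) c d (s2 N * Δ) := by
  have : s2 N * Δ = be N I * (C (ff N) * Δ) - X 0 * (C (th N I) * Δ) := by
    rw [s2_eq N I]; ring
  rw [this]
  exact A_sub (A_be (A_mul (ff_B N I) h (by omega) (fun _ => by omega)))
    (A_a (A_mul (th_B N I) h (by omega) (fun _ => by omega)))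

theorem be_two : be N 2 = X 1 := by simp [be]
theorem be_zero : be N 0 = X 1 := by simp [be]
theorem be_one : be N 1 = X 1 - C (wv N) * X 0 := by simp [be]

theorem A_two {I : Fin 3} {m : ℕ} {c d : ℤ} (d' : ℤ) {Δ : TT} (h : A N I m c d Δ) :
    A N 2 m c d' Δ := by
  induction m generalizing c d d' Δ with
  | zero =>
    obtain ⟨v, hv, rfl⟩ := h
    exact ⟨v, B_two d' hv, rfl⟩
  | succ m ih =>
    obtain ⟨a, b, ha, hb, rfl⟩ := h
    refine A_add (A_a (ih _ ha)) ?_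
    by_cases h : I = 1
    · have : be N I * b = be N 2 * b - X 0 * (C (wv N) * b) := by
        rw [h, be_one, be_two]; ring
      rw [this]
      exact A_sub (A_be (ih _ hb)) (A_a (A_mul (wv_B N 0) (ih 0 hb) (by omega) (by simp)))
    · have : be N I = be N 2 := by simp [be, h]
      rw [this]
      exact A_be (ih _ hb)

theorem A_pow {I : Fin 3} {m : ℕ} {c d : ℤ} {u : Lam} (hu : u ∈ B I c (d + 6 * N * m)) :
    A N I m c d (be N I ^ m * C u) := by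
  induction m generalizing d with
  | zero => exact ⟨u, by simpa using hu, by simp⟩
  | succ m ih =>
    rw [pow_succ', mul_assoc]
    refine A_be (ih ?_)
    convert hu using 2
    push_cast; ring

theorem A_dec {I : Fin 3} {m : ℕ} {c d : ℤ} {Δ : TT} (h : A N I (m + 1) c d Δ) :
    ∃ Δ₁, ∃ u ∈ B I c (d + 6 * N * (m + 1 : ℕ)), A N I m (c + 3 * N) (d - 3 * N) Δ₁ ∧
      Δ = X 0 * Δ₁ + be N I ^ (m + 1) * C u := by
  induction m generalizing d Δ with
  | zero =>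
    obtain ⟨a, b, ha, ⟨u, hu, rfl⟩, rfl⟩ := h
    exact ⟨a, u, by simpa using hu, ha, by simp⟩
  | succ m ih =>
    obtain ⟨a, b, ha, hb, rfl⟩ := h
    obtain ⟨a', u, hu, ha', rfl⟩ := ih hb
    refine ⟨a + be N I * a', u, ?_, A_add ha (A_be ?_), by ring⟩
    · convert hu using 2
      push_cast; ring
    · convert ha' using 1
      ring

theorem pow_diff (m : ℕ) {c : ℤ} {u : Lam} (hu : u ∈ B 2 c 0) :
    ∃ D, A N 2 m (c + 3 * N) 0 D ∧ be N 0 ^ (m + 1) * C u = be N 1 ^ (m + 1) * C u + X 0 * D := by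
  have key : ∀ m : ℕ, ∃ D, A N 2 m (3 * N) 0 D ∧
      be N 0 ^ (m + 1) = be N 1 ^ (m + 1) + X 0 * D := by
    intro m
    induction m with
    | zero => exact ⟨C (wv N), ⟨_, wv_B N 0, rfl⟩, by rw [be_zero, be_one]; ring⟩
    | succ m ih =>
      obtain ⟨D, hD, e⟩ := ih
      have h1 : A N 1 (m + 1) 0 0 (be N 1 ^ (m + 1) * C 1) :=
        A_pow (B_mono (one_B 1) le_rfl (fun _ => by positivity))
      refine ⟨be N 2 * D + C (wv N) * (be N 1 ^ (m + 1) * C 1),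
        A_add (A_be (A_two _ hD)) (A_mul (wv_B N 0) (A_two 0 h1) (by omega) (by simp)), ?_⟩
      rw [pow_succ (be N 0), e, pow_succ (be N 1) (m + 1), be_two, be_zero]
      generalize be N 1 ^ (m + 1) = Z
      rw [be_one, map_one]
      ring
  obtain ⟨D, hD, e⟩ := key m
  exact ⟨C u * D, A_mul hu hD le_rfl (by simp), by rw [e]; ring⟩

variable (N) in
/-- vanishing of `H¹` -/
def H (m : ℕ) (c d : ℤ) : Prop :=
  ∀ Δ, A N 2 m c 0 Δ → ∃ Δ₀ Δ₁, A N 0 m c d Δ₀ ∧ A N 1 m c d Δ₁ ∧ Δ = Δ₀ + Δ₁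

theorem H_zero {c d : ℤ} (hd : -1 ≤ d) : H N 0 c d := by
  rintro _ ⟨u, hu, rfl⟩
  obtain ⟨u₀, h0, u₁, h1, rfl⟩ := B_split hd hu
  exact ⟨_, _, ⟨_, h0, rfl⟩, ⟨_, h1, rfl⟩, by simp⟩

theorem H_A {m : ℕ} {c d : ℤ} (hd : 0 ≤ d) (h : H N m (c + 3 * N) (d - 3 * N)) :
    H N (m + 1) c d := by
  intro Δ hΔ
  obtain ⟨Δ₁, u, hu, h1, rfl⟩ := A_dec hΔ
  obtain ⟨u₀, h0, u₁, h1', rfl⟩ :=
    B_split (d := d + 6 * N * (m + 1 : ℕ)) (by have : (0 : ℤ) ≤ 6 * N * (m + 1 : ℕ) := by positivity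
                                               omega) hu
  obtain ⟨D, hD, e⟩ := pow_diff (N := N) m (B_two 0 h1')
  obtain ⟨E₀, E₁, k0, k1, e'⟩ := h (Δ₁ + D) (A_add (A_two 0 h1) hD)
  refine ⟨_, _, A_add (A_a k0) (A_pow h0), A_add (A_a k1) (A_pow h1'), ?_⟩
  rw [be_two, ← be_zero (N := N), map_add]
  linear_combination e + X 0 * e'

variable (N) in
def ev1 : TT →ₐ[Lam] Lam := aeval ![ff N, th N 0]
def ev2 : TT →ₐ[Lam] Lam := aeval ![0, 1]

@[simp] theorem ev1_C (u : Lam) : ev1 N (C u) = u := by simp [ev1]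
@[simp] theorem ev1_X0 : ev1 N (X 0) = ff N := by simp [ev1]
@[simp] theorem ev1_X1 : ev1 N (X 1) = th N 0 := by simp [ev1]
@[simp] theorem ev2_C (u : Lam) : ev2 (C u) = u := by simp [ev2]
@[simp] theorem ev2_X0 : ev2 (X 0) = 0 := by simp [ev2]
@[simp] theorem ev2_X1 : ev2 (X 1) = 1 := by simp [ev2]

@[simp] theorem ev1_be (I : Fin 3) : ev1 N (be N I) = th N I := by
  by_cases h : I = 1
  · subst h
    simp [be_one, ← th_rel, mul_comm]
  · have : th N I = th N 0 := by simp [th, bI, yk, h]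
    simp [be, h, this]

@[simp] theorem ev2_be (I : Fin 3) : ev2 (be N I) = 1 := by
  unfold be; split_ifs <;> simp

@[simp] theorem ev1_s2 : ev1 N (s2 N) = 0 := by
  simp [s2, mul_comm]

theorem ev1_mem {I : Fin 3} {m : ℕ} {c d : ℤ} {Δ : TT} (h : A N I m c d Δ) :
    ev1 N Δ ∈ B I (c + 6 * N * m) d := by
  induction m generalizing c d Δ with
  | zero =>
    obtain ⟨v, hv, rfl⟩ := h
    simpa using hv
  | succ m ih =>
    obtain ⟨a, b, ha, hb, rfl⟩ := h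
    simp only [map_add, map_mul, ev1_X0, ev1_be]
    exact add_mem (B_mul (ff_B N I) (ih ha) (by push_cast; linarith) (fun _ => by omega))
      (B_mul (th_B N I) (ih hb) (by push_cast; linarith) (fun _ => by omega))

theorem split_one {I : Fin 3} {D d : ℤ} (hD : 16 * N ≤ D) {δ : Lam} (h : δ ∈ B I D d) :
    ∃ δ₁ ∈ B I (D - 3 * N) (d - 3 * N), ∃ δ₂ ∈ B I (D - 6 * N) (d + 6 * N),
      ff N * δ₁ + th N I * δ₂ = δ := by
  have : δ ∈ (B I (D - 3 * N) (d - 3 * N)).map (LinearMap.mulLeft ℂ (ff N)) ⊔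
      (B I (D - 6 * N) (d + 6 * N)).map (LinearMap.mulLeft ℂ (th N I)) := by
    refine B_le (fun s t h1 h2 h3 h4 => ?_) h
    have aux : ∀ (a : Fin 2) (s' : ℤ), 0 ≤ s' → s' + 8 * N ≤ D - 0 →
        mono s' t * xL N a ^ 8 = mono s t →  mono s t ∈ (B I (D - 3 * N) (d - 3 * N)).map
          (LinearMap.mulLeft ℂ (ff N)) ⊔
        (B I (D - 6 * N) (d + 6 * N)).map (LinearMap.mulLeft ℂ (th N I)) := by
      intro a s' k1 k2 e
      have hm : mono s' t ∈ B I s' d := mono_B k1 le_rfl h3 h4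
      rw [← e, xrel N a I, Submodule.mem_sup]
      refine ⟨_, ⟨_, B_mul hm (B_mul (lam_B (rT a (bI I)) N I) (yk_B N I) le_rfl
        (fun _ => le_rfl)) (by push_cast; omega) (fun _ => by push_cast; omega), rfl⟩, _,
        ⟨_, B_mul hm (lam_B (qT a) N I) (by push_cast; omega) (fun _ => by push_cast; omega),
          rfl⟩, ?_⟩
      simp only [LinearMap.mulLeft_apply]
      ring
    by_cases hs : 8 * N ≤ s
    · refine aux 1 (s - 8 * N) (by omega) (by omega) ?_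
      simp [xL, mono_pow, mono_mul]
    · exact aux 0 s h1 (by omega) (by simp [xL])
  obtain ⟨_, ⟨δ₁, k1, rfl⟩, _, ⟨δ₂, k2, rfl⟩, e⟩ := Submodule.mem_sup.1 this
  exact ⟨δ₁, k1, δ₂, k2, e⟩

theorem lift1 {I : Fin 3} {m : ℕ} {c d : ℤ} (hc : 10 * N ≤ c) {δ : Lam}
    (h : δ ∈ B I (c + 6 * N * m) d) : ∃ Δ, A N I m c d Δ ∧ ev1 N Δ = δ := by
  induction m generalizing c d δ with
  | zero => exact ⟨C δ, ⟨δ, by simpa using h, rfl⟩, by simp⟩
  | succ m ih =>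
    have hm : (0 : ℤ) ≤ 6 * N * m := by positivity
    obtain ⟨δ₁, k1, δ₂, k2, rfl⟩ := split_one (N := N) (by push_cast; linarith) h
    obtain ⟨Δ₁, a1, rfl⟩ := ih (c := c + 3 * N) (by omega)
      (B_mono k1 (by push_cast; linarith) (fun _ => le_rfl))
    obtain ⟨Δ₂, a2, rfl⟩ := ih (c := c) hc (B_mono k2 (by push_cast; linarith) (fun _ => le_rfl))
    exact ⟨_, ⟨Δ₁, Δ₂, a1, a2, rfl⟩, by simp⟩

section ker
variable (hf : ff N ≠ 0)
include hf

theorem div_one {e : ℤ} {u S : Lam} (hu : u ∈ B 2 e 0) (hS : S ∈ B 2 (e + 3 * N) 0)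
    (h : th N 0 * u = ff N * S) : ∃ ε ∈ B 2 (e - 3 * N) 0, u = ff N * ε := by
  have r0 := xrel N 0 0
  have r1 := xrel N 1 0
  have hy : yk N 0 = 1 := by simp [yk]
  simp only [xL, Matrix.cons_val_zero, Matrix.cons_val_one, one_pow, mono_pow, hy, mul_one,
    mul_zero] at r0 r1
  have e0 : u = ff N * (S * lam (qT 0) N + u * lam (rT 0 (bI 0)) N) := by
    linear_combination u * r0 + lam (qT 0) N * h
  refine ⟨_, ?_, e0⟩
  have e1 : mono ((8 : ℕ) * N) 0 * (S * lam (qT 0) N + u * lam (rT 0 (bI 0)) N) =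
      S * lam (qT 1) N + u * lam (rT 1 (bI 0)) N := by
    apply mul_left_cancel₀ hf
    linear_combination u * r1 + lam (qT 1) N * h - mono ((8 : ℕ) * N) 0 * e0
  have m : ∀ a, S * lam (qT a) N + u * lam (rT a (bI 0)) N ∈ B 2 (e + 5 * N) 0 := fun a =>
    add_mem (B_mul hS (lam_B _ N 2) (by push_cast; omega) (by simp))
      (B_mul hu (lam_B _ N 2) (by push_cast; omega) (by simp))
  have m1 := m 1
  rw [← e1] at m1
  exact B_mono (B_shift (m 0) m1) (by push_cast; omega) (by simp)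

theorem div_pow (m : ℕ) {c : ℤ} {u S : Lam} (hu : u ∈ B 2 c 0)
    (hS : S ∈ B 2 (c - 3 * N + 6 * N * m) 0)
    (h : th N 0 ^ m * u = ff N * S) : ∃ ε ∈ B 2 (c - 3 * N) 0, u = ff N * ε := by
  induction m generalizing S with
  | zero => exact ⟨S, by simpa using hS, by simpa using h⟩
  | succ m ih =>
    have h1 : ∀ m : ℕ, th N 0 ^ m * u ∈ B 2 (c + 6 * N * m) 0 := by
      intro m
      induction m with
      | zero => simpa using hu
      | succ m ih =>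
        have e : th N 0 ^ (m + 1) * u = th N 0 * (th N 0 ^ m * u) := by ring
        rw [e]
        refine B_mul (B_two 0 (th_B N 0)) ih ?_ (by simp)
        push_cast; linarith
    obtain ⟨ε, k, e⟩ := div_one hf (h1 m) (B_mono hS (by push_cast; linarith) (by simp))
      (by rw [← h]; ring)
    exact ih (B_mono k (by linarith) (by simp)) e

theorem ker_step {m : ℕ}
    (ih : ∀ (c : ℤ) (Δ : TT), A N 2 m c 0 Δ → ev1 N Δ = 0 →
      ∃ Δ', A N 2 m (c - 6 * N) 0 Δ' ∧ X 0 * Δ = s2 N * Δ')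
    {c : ℤ} {Δ : TT} (h : A N 2 (m + 1) c 0 Δ) (h0 : ev1 N Δ = 0) :
    ∃ Δ', A N 2 m (c - 3 * N) 0 Δ' ∧ Δ = s2 N * Δ' := by
  obtain ⟨Δ₁, u, hu, h1, rfl⟩ := A_dec h
  simp only [map_add, map_mul, map_pow, ev1_X0, ev1_be, ev1_C, th_two] at h0
  obtain ⟨ε, k, rfl⟩ := div_pow hf (m + 1) (B_two 0 hu) (S := -ev1 N Δ₁)
    (neg_mem (B_mono (ev1_mem h1) (by push_cast; linarith) (by simp))) (by linear_combination h0)
  have hp : A N 2 m (c - 3 * N) 0 (be N 2 ^ m * C ε) := A_pow (B_two _ k)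
  obtain ⟨Δ', a1, e⟩ := ih (c + 3 * N) (Δ₁ + C (th N 0) * (be N 2 ^ m * C ε))
    (A_add (A_two 0 h1) (A_mul (B_two 0 (th_B N 0)) hp (by omega) (by simp))) (by
      apply mul_left_cancel₀ hf
      simp only [map_add, map_mul, map_pow, ev1_be, ev1_C, th_two]
      linear_combination h0)
  refine ⟨Δ' + be N 2 ^ m * C ε, A_add (A_mono a1 (by omega) (by simp)) hp, ?_⟩
  rw [mul_add (s2 N), ← e, s2, be_two, map_mul]
  ring

theorem ker_aux (m : ℕ) : ∀ (c : ℤ) (Δ : TT), A N 2 m c 0 Δ → ev1 N Δ = 0 →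
      ∃ Δ', A N 2 m (c - 6 * N) 0 Δ' ∧ X 0 * Δ = s2 N * Δ' := by
  induction m with
  | zero =>
    rintro c _ ⟨u, hu, rfl⟩ h0
    rw [ev1_C] at h0
    exact ⟨0, A_zero _ _ _ _, by simp [h0]⟩
  | succ m ih =>
    intro c Δ h h0
    obtain ⟨Δ', a1, rfl⟩ := ker_step hf ih h h0
    exact ⟨X 0 * Δ', A_a (A_mono (A_two _ a1) (by omega) (fun _ => le_rfl)), by ring⟩

theorem ker1 {m : ℕ} {c : ℤ} {Δ : TT} (h : A N 2 (m + 1) c 0 Δ) (h0 : ev1 N Δ = 0) :
    ∃ Δ', A N 2 m (c - 3 * N) 0 Δ' ∧ Δ = s2 N * Δ' := ker_step hf (ker_aux hf m) h h0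

theorem H_B {m : ℕ} {c d : ℤ} (hd : 0 ≤ d) (hc : 10 * N ≤ c)
    (h : H N m (c - 3 * N) (d + 3 * N)) : H N (m + 1) c d := by
  intro Δ hΔ
  obtain ⟨u₀, h0, u₁, h1, e⟩ := B_split (d := d) (by omega) (ev1_mem hΔ)
  obtain ⟨Δ₀, a0, rfl⟩ := lift1 hc h0
  obtain ⟨Δ₁, a1, rfl⟩ := lift1 hc h1
  obtain ⟨Δ', b, e'⟩ := ker1 hf (A_sub (A_sub hΔ (A_two 0 a0)) (A_two 0 a1))
    (by simp only [map_sub]; linear_combination -e)
  obtain ⟨E₀, E₁, k0, k1, rfl⟩ := h Δ' b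
  exact ⟨_, _, A_add a0 (A_s2 k0), A_add a1 (A_s2 k1), by linear_combination e'⟩

theorem H_all (m : ℕ) {c d : ℤ} (h : (10 * N ≤ c ∧ 3 * N ≤ d) ∨ (13 * N ≤ c ∧ 0 ≤ d)) :
    H N m c d := by
  induction m generalizing c d with
  | zero => exact H_zero (by omega)
  | succ m ih =>
    rcases h with h | h
    · exact H_A (by omega) (ih (by omega))
    · exact H_B hf (by omega) (by omega) (ih (by omega))

theorem glob2 {m : ℕ} {c d : ℤ} (hc : 10 * N ≤ c) (hd : 3 * N ≤ d) {u : Lam}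
    (h0 : u ∈ B 0 c (d + 6 * N * (m + 1 : ℕ))) (h1 : u ∈ B 1 c (d + 6 * N * (m + 1 : ℕ))) :
    ∃ Δ, A N 0 (m + 1) c d Δ ∧ A N 1 (m + 1) c d Δ ∧ ev2 Δ = u := by
  obtain ⟨D, hD, e⟩ := pow_diff (N := N) m (B_two 0 h1)
  obtain ⟨E₀, E₁, k0, k1, rfl⟩ := H_all hf m (c := c + 3 * N) (d := d - 3 * N) (by omega) D hD
  refine ⟨_, A_sub (A_pow h0) (A_a k0), ?_, by simp⟩
  convert A_add (A_pow h1) (A_a k1) using 1
  linear_combination e

theorem glob1 {m : ℕ} {c d : ℤ} (hc : 13 * N ≤ c) (hd : 0 ≤ d) {u : Lam}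
    (h0 : u ∈ B 0 (c + 6 * N * (m + 1 : ℕ)) d) (h1 : u ∈ B 1 (c + 6 * N * (m + 1 : ℕ)) d) :
    ∃ Δ, A N 0 (m + 1) c d Δ ∧ A N 1 (m + 1) c d Δ ∧ ev1 N Δ = u := by
  obtain ⟨Δ₀, a0, e0⟩ := lift1 (by omega) h0
  obtain ⟨Δ₁, a1, e1⟩ := lift1 (by omega) h1
  obtain ⟨Δ', b, e'⟩ := ker1 hf (A_sub (A_two 0 a0) (A_two 0 a1)) (by simp [e0, e1])
  obtain ⟨E₀, E₁, k0, k1, rfl⟩ :=
    H_all hf m (c := c - 3 * N) (d := d + 3 * N) (by omega) Δ' b
  refine ⟨_, A_sub a0 (A_s2 k0), ?_, by simp [e0]⟩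
  convert A_add a1 (A_s2 k1) using 1
  linear_combination e'

end ker

end Main

end Crest.Agent.R258
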