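import Crest.Agent.R258.Alg

/-! Row 258: the bundles `E_N` are ample. -/

set_option autoImplicit false
set_option linter.unusedSimpArgs false
set_option linter.unusedVariables false

noncomputable section

namespace Crest.Agent.R258
open MvPolynomial Crest.AlgGeometry.QuadricBundle Matrix Filter Topology

abbrev P2 : Type := MvPolynomial (Fin 2) ℂ

theorem hom_zero {R : P2} (h : R.IsHomogeneous 0) : ∃ a : ℂ, R = C a :=
  ⟨_, totalDegree_eq_zero_iff_eq_C.1 ((totalDegree_zero_iff_isHomogeneous _).2 h)⟩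

theorem hom_succ {m : ℕ} {R : P2} (h : R.IsHomogeneous (m + 1)) :
    ∃ R₀ R₁ : P2, R₀.IsHomogeneous m ∧ R₁.IsHomogeneous m ∧ R = X 0 * R₀ + X 1 * R₁ := by
  have h' : R ∈ homogeneousSubmodule (Fin 2) ℂ 1 * homogeneousSubmodule (Fin 2) ℂ m := by
    rw [← homogeneousSubmodule_one_pow _ m, ← pow_succ', homogeneousSubmodule_one_pow]
    exact h
  refine Submodule.mul_induction_on h' (fun a ha b hb => ?_) ?_
  · rw [homogeneousSubmodule_one_eq_span_X, Submodule.mem_span_range_iff_exists_fun] at ha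
    obtain ⟨c, rfl⟩ := ha
    refine ⟨C (c 0) * b, C (c 1) * b, IsHomogeneous.C_mul hb _, IsHomogeneous.C_mul hb _, ?_⟩
    simp only [Fin.sum_univ_two, smul_eq_C_mul]
    ring
  · rintro _ _ ⟨a, b, ha, hb, rfl⟩ ⟨a', b', ha', hb', rfl⟩
    exact ⟨_, _, ha.add ha', hb.add hb', by ring⟩

theorem eval_hom {m : ℕ} {R : P2} (h : R.IsHomogeneous m) (c : ℂ) (v : V) :
    eval (c • v) R = c ^ m * eval v R := by
  induction m generalizing R with
  | zero => obtain ⟨a, rfl⟩ := hom_zero h; simp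
  | succ m ih =>
    obtain ⟨a, b, ha, hb, rfl⟩ := hom_succ h
    simp only [map_add, map_mul, ih ha, ih hb, eval_X, Pi.smul_apply, smul_eq_mul]
    ring

theorem fib_aux (ℓ L : P2) (hL : L.IsHomogeneous 1) (v e : V)
    (hX : ∀ j, X j = C (v j) * L + C (e j) * ℓ) (m : ℕ) :
    ∀ R : P2, R.IsHomogeneous (m + 1) →
      ∃ R' : P2, ∃ κ : ℂ, R'.IsHomogeneous m ∧ R = ℓ * R' + C κ * L ^ (m + 1) := by
  induction m with
  | zero =>
    intro R h
    obtain ⟨a, b, ha, hb, rfl⟩ := hom_succ h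
    obtain ⟨a, rfl⟩ := hom_zero ha
    obtain ⟨b, rfl⟩ := hom_zero hb
    refine ⟨C (e 0 * a + e 1 * b), v 0 * a + v 1 * b, isHomogeneous_C _ _, ?_⟩
    rw [hX 0, hX 1]
    simp only [map_add, map_mul]
    ring
  | succ m ih =>
    intro R h
    obtain ⟨a, b, ha, hb, rfl⟩ := hom_succ h
    obtain ⟨a', κ, ha', rfl⟩ := ih a ha
    obtain ⟨b', κ', hb', rfl⟩ := ih b hb
    have hp : (L ^ (m + 1)).IsHomogeneous (m + 1) := by simpa using hL.pow (m + 1)
    have h0 : ∀ j : Fin 2, ∀ {a : P2}, a.IsHomogeneous m → (X j * a).IsHomogeneous (m + 1) :=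
      fun j a ha => by simpa [add_comm] using (isHomogeneous_X ℂ j).mul ha
    refine ⟨X 0 * a' + X 1 * b' + C (e 0 * κ + e 1 * κ') * L ^ (m + 1), v 0 * κ + v 1 * κ',
      ((h0 0 ha').add (h0 1 hb')).add (hp.C_mul _), ?_⟩
    simp only [map_add, map_mul]
    linear_combination (C κ * L ^ (m + 1)) * hX 0 + (C κ' * L ^ (m + 1)) * hX 1

theorem fib {v : V} (hv : v ≠ 0) {m : ℕ} {R : P2} (h : R.IsHomogeneous (m + 1))
    (h0 : eval v R = 0) :
    ∃ R' : P2, R'.IsHomogeneous m ∧ R = (C (v 0) * X 1 - C (v 1) * X 0) * R' := by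
  have key : ∀ (L : P2) (e : V), L.IsHomogeneous 1 → eval v L = 1 →
      (∀ j, X j = C (v j) * L + C (e j) * (C (v 0) * X 1 - C (v 1) * X 0)) →
      ∃ R' : P2, R'.IsHomogeneous m ∧ R = (C (v 0) * X 1 - C (v 1) * X 0) * R' := by
    intro L e hL h1 hX
    obtain ⟨R', κ, k, rfl⟩ := fib_aux _ L hL v e hX m R h
    refine ⟨R', k, ?_⟩
    have : κ = 0 := by simpa [h1, mul_comm] using h0
    simp [this]
  by_cases a0 : v 0 = 0
  · have a1 : v 1 ≠ 0 := fun a1 => hv (by funext i; fin_cases i <;> simp [a0, a1])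
    have e1 : (C (v 1) * C (v 1)⁻¹ : P2) = 1 := by rw [← map_mul, mul_inv_cancel₀ a1, map_one]
    refine key (C (v 1)⁻¹ * X 1) ![-(v 1)⁻¹, 0] (isHomogeneous_C_mul_X _ _) (by simp [a1]) ?_
    intro j
    fin_cases j
    · simp only [Fin.zero_eta, Matrix.cons_val_zero, map_neg]
      linear_combination (-X 0) * e1
    · simp only [Fin.mk_one, Matrix.cons_val_one, Matrix.cons_val_zero, map_zero]
      linear_combination (-X 1) * e1
  · have e1 : (C (v 0) * C (v 0)⁻¹ : P2) = 1 := by rw [← map_mul, mul_inv_cancel₀ a0, map_one]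
    refine key (C (v 0)⁻¹ * X 0) ![0, (v 0)⁻¹] (isHomogeneous_C_mul_X _ _) (by simp [a0]) ?_
    intro j
    fin_cases j
    · simp only [Fin.zero_eta, Matrix.cons_val_zero, map_zero]
      linear_combination (-X 0) * e1
    · simp only [Fin.mk_one, Matrix.cons_val_one, Matrix.cons_val_zero]
      linear_combination (-X 1) * e1

/-- holomorphic families of homogeneous polynomials -/
structure Hol (m : ℕ) (Q : V → P2) : Prop where
  hom : ∀ p, (Q p).IsHomogeneous m
  diff : ∀ e, Differentiable ℂ (fun p => coeff e (Q p))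
  cont : Continuous (fun q : V × V => eval q.2 (Q q.1))

theorem Hol.add {m : ℕ} {Q Q' : V → P2} (h : Hol m Q) (h' : Hol m Q') :
    Hol m (fun p => Q p + Q' p) :=
  ⟨fun p => (h.hom p).add (h'.hom p), fun e => by
    simp only [coeff_add]; exact (h.diff e).add (h'.diff e), by
    simp only [map_add]; exact h.cont.add h'.cont⟩

theorem Hol.mul {m n : ℕ} {Q Q' : V → P2} (h : Hol m Q) (h' : Hol n Q') :
    Hol (m + n) (fun p => Q p * Q' p) :=
  ⟨fun p => (h.hom p).mul (h'.hom p), fun e => by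
    classical
    simp only [coeff_mul]
    exact Differentiable.fun_sum fun x _ => (h.diff _).mul (h'.diff _), by
    simp only [map_mul]; exact h.cont.mul h'.cont⟩

theorem hol_C {φ : V → ℂ} (h : Differentiable ℂ φ) : Hol 0 (fun p => C (φ p)) :=
  ⟨fun p => isHomogeneous_C _ _, fun e => by
    classical
    simp only [coeff_C]
    split_ifs
    exacts [h, differentiable_const _], by
    simp only [eval_C]; exact h.continuous.comp continuous_fst⟩

theorem hol_X (i : Fin 2) : Hol 1 (fun _ => X i) :=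
  ⟨fun p => isHomogeneous_X _ _, fun e => differentiable_const _, by
    simp only [eval_X]; fun_prop⟩

theorem Hol.X_mul {m : ℕ} {Q : V → P2} (h : Hol m Q) (i : Fin 2) :
    Hol (m + 1) (fun p => X i * Q p) := by
  simpa only [add_comm] using (hol_X i).mul h

theorem Hol.C_mul {m : ℕ} {Q : V → P2} (h : Hol m Q) {φ : V → ℂ} (hφ : Differentiable ℂ φ) :
    Hol m (fun p => C (φ p) * Q p) := by
  simpa only [zero_add] using (hol_C hφ).mul h

def Tor : Set V := {p | ∀ i, p i ≠ 0}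

theorem dense_Tor : Dense Tor := by
  have := dense_pi (s := fun _ : Fin 2 => ({0}ᶜ : Set ℂ)) Set.univ
    (fun _ _ => dense_compl_singleton 0)
  convert this using 1
  ext p; simp [Tor]

theorem eq_of_Tor {F G : V → ℂ} {p : V} (hF : ContinuousAt F p) (hG : ContinuousAt G p)
    (h : ∀ᶠ q in 𝓝 p, q ∈ Tor → F q = G q) : F p = G p :=
  tendsto_nhds_unique_of_frequently_eq hF hG
    (((mem_closure_iff_frequently.1 (dense_Tor p)).and_eventually h).mono fun _ h => h.2 h.1)

theorem Tor_overlap {p : V} (hp : p ∈ Tor) (α β : Chart) : p ∈ overlap α β :=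
  ⟨fun _ => hp 0, fun _ => hp 1⟩

theorem tau_Tor {p : V} (hp : p ∈ Tor) (α β : Chart) : tau α β p ∈ Tor := by
  intro i
  fin_cases i <;> simp only [tau] <;> split_ifs <;> simp [hp _]

theorem tau_tau (α β γ : Chart) (p : V) : tau β γ (tau α β p) = tau α γ p := by
  obtain ⟨a, b⟩ := α
  obtain ⟨a', b'⟩ := β
  obtain ⟨a'', b''⟩ := γ
  funext i
  fin_cases i
  · fin_cases a <;> fin_cases a' <;> fin_cases a'' <;> simp [tau]
  · fin_cases b <;> fin_cases b' <;> fin_cases b'' <;> simp [tau]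

theorem tau_self (α : Chart) (p : V) : tau α α p = p := by
  funext i; fin_cases i <;> simp [tau]

@[fun_prop] theorem continuous_sx (α β : Chart) : Continuous (sx α β) := by
  unfold sx; fun_prop
@[fun_prop] theorem continuous_sy (α β : Chart) : Continuous (sy α β) := by
  unfold sy; fun_prop

theorem isOpen_overlap (α β : Chart) : IsOpen (overlap α β) := by
  have : overlap α β = {p | sx α β p ≠ 0} ∩ {p | sy α β p ≠ 0} := by
    ext p; exact mem_overlap
  rw [this]
  exact (isOpen_ne_fun (continuous_sx α β) continuous_const).inter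
    (isOpen_ne_fun (continuous_sy α β) continuous_const)

theorem continuousAt_tau {α β : Chart} {p : V} (h : p ∈ overlap α β) :
    ContinuousAt (tau α β) p := by
  refine continuousAt_pi.2 fun i => ?_
  fin_cases i
  · by_cases e : α.1 = β.1
    · simp only [tau, e, if_true]; exact (continuous_apply 0).continuousAt
    · simp only [tau, e, if_false]; exact (continuous_apply 0).continuousAt.inv₀ (h.1 e)
  · by_cases e : α.2 = β.2
    · simp only [tau, e, if_true]; exact (continuous_apply 1).continuousAt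
    · simp only [tau, e, if_false]; exact (continuous_apply 1).continuousAt.inv₀ (h.2 e)

variable {N : ℕ}

theorem vecMul_gF (α β : Chart) (p l : V) : l ᵥ* gF N α β p =
    ![l 0 * ((sx α β p ^ N) ^ 3 * ((sy α β p ^ N)⁻¹) ^ 3),
      l 0 * (sg ℂ α.2 β.2 * ch wT N α p * ((sy α β p ^ N)⁻¹) ^ 2) + l 1 * (sy α β p ^ N) ^ 6] := by
  funext i
  fin_cases i <;> simp [gF, vecMul, dotProduct, Fin.sum_univ_two]

theorem continuousAt_gF {α β : Chart} {p : V} (h : p ∈ overlap α β) (l : V) :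
    ContinuousAt (fun p => l ᵥ* gF N α β p) p := by
  have h2 := pow_ne_zero N (mem_overlap.1 h).2
  have := (differentiable_ch wT N α).continuous
  simp only [vecMul_gF]
  refine continuousAt_pi.2 fun i => ?_
  fin_cases i <;> simp <;> fun_prop (disch := simp [(mem_overlap.1 h).2])

variable (N) in
/-- global sections of `S^m F_N (c,d)` -/
structure Sec (c d : ℤ) (m : ℕ) (Q : Chart → V → P2) : Prop where
  hol : ∀ α, Hol m (Q α)
  compat : ∀ α β, ∀ p ∈ overlap α β, ∀ l : V, eval l (Q α p) =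
    sx α β p ^ c * sy α β p ^ d * eval (l ᵥ* gF N α β p) (Q β (tau α β p))

theorem Sec.add {c d : ℤ} {m : ℕ} {Q Q' : Chart → V → P2} (h : Sec N c d m Q)
    (h' : Sec N c d m Q') : Sec N c d m (fun α p => Q α p + Q' α p) :=
  ⟨fun α => (h.hol α).add (h'.hol α), fun α β p hp l => by
    simp only [map_add, h.compat α β p hp, h'.compat α β p hp]; ring⟩

theorem Sec.smul {c d : ℤ} {m : ℕ} {Q : Chart → V → P2} (h : Sec N c d m Q) (κ : ℂ) :
    Sec N c d m (fun α p => C κ * Q α p) :=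
  ⟨fun α => (h.hol α).C_mul (differentiable_const κ), fun α β p hp l => by
    simp only [map_mul, eval_C, h.compat α β p hp]; ring⟩

theorem Sec.mul {c d c' d' : ℤ} {m n : ℕ} {Q Q' : Chart → V → P2} (h : Sec N c d m Q)
    (h' : Sec N c' d' n Q') : Sec N (c + c') (d + d') (m + n) (fun α p => Q α p * Q' α p) :=
  ⟨fun α => (h.hol α).mul (h'.hol α), fun α β p hp l => by
    obtain ⟨h1, h2⟩ := mem_overlap.1 hp
    simp only [map_mul, h.compat α β p hp, h'.compat α β p hp, zpow_add₀ h1, zpow_add₀ h2]; ring⟩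

theorem sec_a : Sec N (-(3 * N)) (3 * N) 1 (fun _ _ => X 0) :=
  ⟨fun α => hol_X 0, fun α β p hp l => by
    obtain ⟨h1, h2⟩ := mem_overlap.1 hp
    have e : (3 * N : ℤ) = (N * 3 : ℕ) := by push_cast; ring
    simp only [eval_X, vecMul_gF, e, _root_.zpow_neg, zpow_natCast, pow_mul, Matrix.cons_val_zero]
    field_simp⟩

theorem ch_pw (α : Chart) (β : Chart) (p : V) : ch (pT β.2) N α p =
    (sy α β p ^ N) ^ 8 * ch (pT α.2) N α p + sg ℂ α.2 β.2 * ch wT N α p * ch fT N α p := by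
  have := id_pw om_sq (pw N (hc α.1 (p 0))) (pw N (hc α.2 (p 1))) α.2 β.2
  simpa [ch, sy] using this

variable (N) in
def vq (α : Chart) (p : V) : V := ![ch fT N α p, ch (pT α.2) N α p]

theorem sec_s : Sec N (3 * N) (-(3 * N)) 1
    (fun α p => C (vq N α p 0) * X 1 - C (vq N α p 1) * X 0) :=
  ⟨fun α => by
    have := ((hol_X 1).C_mul (differentiable_ch fT N α)).add
      ((hol_X 0).C_mul (differentiable_ch (pT α.2) N α).neg)
    simpa [vq, sub_eq_add_neg] using this, fun α β p hp l => by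
    obtain ⟨h1, h2⟩ := mem_overlap.1 hp
    have e : (3 * N : ℤ) = (N * 3 : ℕ) := by push_cast; ring
    simp only [eval_X, vecMul_gF, e, _root_.zpow_neg, zpow_natCast, pow_mul, Matrix.cons_val_zero, vq,
      Matrix.cons_val_one, map_sub, map_mul, eval_C, ch_tau _ N hp, ch_pw α β p]
    field_simp
    ring⟩

theorem vq_trans {α β : Chart} {p : V} (hp : p ∈ overlap α β) :
    vq N α p ᵥ* gF N α β p = ((sx α β p ^ N) ^ 6) • vq N β (tau α β p) := by
  obtain ⟨h1, h2⟩ := mem_overlap.1 hp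
  funext i
  fin_cases i <;>
    simp only [vecMul_gF, vq, Matrix.cons_val_zero, Matrix.cons_val_one, ch_tau _ N hp, ch_pw α β p,
      Fin.zero_eta, Fin.mk_one, Pi.smul_apply, smul_eq_mul] <;> field_simp
  ring

theorem vq_ne (α : Chart) (p : V) : vq N α p ≠ 0 := by
  intro h
  have h0 : ch fT N α p = 0 := congrFun h 0
  have h1 : ch (pT α.2) N α p = 0 := congrFun h 1
  have := id_r om_sq (pw N (hc α.1 (p 0))) (pw N (hc α.2 (p 1))) α.1 α.2
  simp only [ch] at h0 h1
  simp [h0, h1] at this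

abbrev o : Chart := (0, 0)

theorem sec_of_tor {c d : ℤ} {m : ℕ} {Q : Chart → V → P2} (h : ∀ α, Hol m (Q α))
    (Φ : (p : V) → p ∈ Tor → V → ℂ)
    (hΦ : ∀ α p (hp : p ∈ Tor) l, Φ p hp l =
      sx o α p ^ c * sy o α p ^ d * eval (l ᵥ* gF N o α p) (Q α (tau o α p))) :
    Sec N c d m Q := by
  refine ⟨h, fun α β p hp l => ?_⟩
  obtain ⟨h1, h2⟩ := mem_overlap.1 hp
  refine eq_of_Tor (F := fun p => eval l (Q α p)) (G := fun p =>
    sx α β p ^ c * sy α β p ^ d * eval (l ᵥ* gF N α β p) (Q β (tau α β p))) ?_ ?_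
    (Eventually.of_forall fun q hq => ?_)
  · exact ((h α).cont.comp (continuous_id.prodMk continuous_const)).continuousAt
  · refine (((continuous_sx α β).continuousAt.zpow₀ _ (Or.inl h1)).mul
      ((continuous_sy α β).continuousAt.zpow₀ _ (Or.inl h2))).mul ?_
    exact (h β).cont.continuousAt.comp₂ (continuousAt_tau hp) (continuousAt_gF hp l)
  · have hq0 := tau_Tor hq α o
    have k1 := hΦ α _ hq0 (l ᵥ* gF N α o q)
    have k2 := hΦ β _ hq0 (l ᵥ* gF N α o q)
    have hαo := Tor_overlap hq α o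
    rw [vecMul_vecMul, gF_cocycle N α o _ q hαo (Tor_overlap hq _ _), tau_tau, sx_tau _ hαo,
      sy_tau _ hαo] at k1 k2
    have g1 : gF N α α q = 1 := by
      ext i j
      fin_cases i <;> fin_cases j <;> simp [gF, sx, sy, sg]
    obtain ⟨a1, a2⟩ := mem_overlap.1 hαo
    have s1 : sx α α q = 1 := by simp [sx]
    have s2 : sy α α q = 1 := by simp [sy]
    rw [g1, vecMul_one, tau_self, s1, s2, k2] at k1
    simp only [mul_zpow, _root_.one_zpow, mul_one] at k1
    have b1 := zpow_ne_zero c (inv_ne_zero a1)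
    have b2 := zpow_ne_zero d (inv_ne_zero a2)
    apply mul_left_cancel₀ (mul_ne_zero b1 b2)
    linear_combination -k1

/-- evaluation at a point of the torus -/
def evL (p : V) (hp : p ∈ Tor) : Lam →ₐ[ℂ] ℂ :=
  AddMonoidAlgebra.lift ℂ ℂ (ℤ × ℤ)
    { toFun := fun e => p 0 ^ e.toAdd.1 * p 1 ^ e.toAdd.2
      map_one' := by simp
      map_mul' := fun a b => by
        simp only [toAdd_mul, Prod.fst_add, Prod.snd_add, zpow_add₀ (hp 0), zpow_add₀ (hp 1)]
        ring }

@[simp] theorem evL_mono (p : V) (hp : p ∈ Tor) (s t : ℤ) :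
    evL p hp (mono s t) = p 0 ^ s * p 1 ^ t := by
  simp [evL, mono]

theorem evL_lam {k l : ℕ} (P : BiF k l) (p : V) (hp : p ∈ Tor) :
    evL p hp (lam P N) = ch P N o p := by
  rw [lam, BiF.map_ev, ch]
  congr 1
  · rw [omL, AlgHom.commutes]; rfl
  · funext i; fin_cases i <;> simp [xL, hc]
  · funext i; fin_cases i <;> simp [yL, hc]

theorem ff_ne (hN : N ≠ 0) : ff N ≠ 0 := by
  intro h
  obtain ⟨y, hy⟩ := IsAlgClosed.exists_pow_nat_eq (2 : ℂ) (Nat.pos_of_ne_zero hN)
  have hy0 : y ≠ 0 := by rintro rfl; simp [hN] at hy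
  have hp : ![1, y] ∈ Tor := by intro i; fin_cases i <;> simp [hy0]
  have := evL_lam (N := N) fT _ hp
  rw [show lam fT N = ff N from rfl, h, map_zero, ch, id_f om_sq] at this
  simp only [dt, gv, hc, pw_apply, if_true, Matrix.cons_val_zero, Matrix.cons_val_one,
    Matrix.cons_val, one_pow, hy] at this
  have h3 : (3 : ℂ) = 0 := by linear_combination (om + 1) * this + (om + 2) * om_sq
  norm_num at h3

def evT (p : V) (hp : p ∈ Tor) (l : V) : TT →+* ℂ := eval₂Hom (evL p hp).toRingHom l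

@[simp] theorem evT_C (p : V) (hp : p ∈ Tor) (l : V) (u : Lam) : evT p hp l (C u) = evL p hp u := by
  simp [evT]

@[simp] theorem evT_X (p : V) (hp : p ∈ Tor) (l : V) (i : Fin 2) : evT p hp l (X i) = l i := by
  simp [evT]

theorem evT_ev2 (p : V) (hp : p ∈ Tor) (Δ : TT) : evT p hp ![0, 1] Δ = evL p hp (ev2 Δ) := by
  induction Δ using MvPolynomial.induction_on with
  | C u => simp
  | add a b ha hb => simp [ha, hb]
  | mul_X a i ha => fin_cases i <;> simp [ha]

theorem evT_ev1 (p : V) (hp : p ∈ Tor) (Δ : TT) :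
    evT p hp (vq N o p) Δ = evL p hp (ev1 N Δ) := by
  induction Δ using MvPolynomial.induction_on with
  | C u => simp
  | add a b ha hb => simp [ha, hb]
  | mul_X a i ha =>
    rw [map_mul, ha]
    fin_cases i <;> simp [ff, th, evL_lam, vq, yk, bI]

theorem sx_o (α : Chart) (p : V) : sx o α p = if α.1 = 0 then 1 else p 0 := by
  simp [sx, hc_eq, eq_comm]

theorem sy_o (α : Chart) (p : V) : sy o α p = if α.2 = 0 then 1 else p 1 := by
  simp [sy, hc_eq, eq_comm]

theorem good_B (α : Chart) {c d : ℤ} {u : Lam} (hu : u ∈ B α.2.castSucc c d) :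
    ∃ φ : V → ℂ, Differentiable ℂ φ ∧ ∀ p (hp : p ∈ Tor),
      evL p hp u = sx o α p ^ c * sy o α p ^ d * φ (tau o α p) := by
  let W : Submodule ℂ Lam :=
    { carrier := {u | ∃ φ : V → ℂ, Differentiable ℂ φ ∧ ∀ p (hp : p ∈ Tor),
        evL p hp u = sx o α p ^ c * sy o α p ^ d * φ (tau o α p)}
      add_mem' := by
        rintro a b ⟨φ, h1, h2⟩ ⟨ψ, k1, k2⟩
        exact ⟨φ + ψ, h1.add k1, fun p hp => by rw [map_add, h2, k2, Pi.add_apply]; ring⟩
      zero_mem' := ⟨0, differentiable_const _, fun p hp => by simp⟩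
      smul_mem' := by
        rintro a b ⟨φ, h1, h2⟩
        exact ⟨a • φ, h1.const_smul a, fun p hp => by
          rw [map_smul, h2, Pi.smul_apply, smul_eq_mul, smul_eq_mul]; ring⟩ }
  refine B_le (W := W) (fun s t h1 h2 h3 h4 => ?_) hu
  obtain ⟨a, b⟩ := α
  refine ⟨fun q => q 0 ^ (if a = 0 then s else c - s).toNat *
    q 1 ^ (if b = 0 then t else d - t).toNat, by fun_prop, fun p hp => ?_⟩
  have e1 : p 0 ^ s = sx o (a, b) p ^ c *
      tau o (a, b) p 0 ^ (if a = 0 then s else c - s).toNat := by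
    rw [← zpow_natCast, Int.toNat_of_nonneg (by split_ifs <;> omega)]
    fin_cases a
    · simp [sx_o, tau]
    · simp [sx_o, tau, zpow_sub₀ (hp 0), mul_div_cancel₀ _ (zpow_ne_zero c (hp 0))]
  have e2 : p 1 ^ t = sy o (a, b) p ^ d *
      tau o (a, b) p 1 ^ (if b = 0 then t else d - t).toNat := by
    fin_cases b
    · rw [← zpow_natCast, Int.toNat_of_nonneg (by simpa using h3 rfl)]
      simp [sy_o, tau]
    · rw [← zpow_natCast, Int.toNat_of_nonneg (by simpa using h4 rfl)]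
      simp [sy_o, tau, zpow_sub₀ (hp 1), mul_div_cancel₀ _ (zpow_ne_zero d (hp 1))]
  rw [evL_mono, e1, e2]
  ring

theorem good_A (α : Chart) {m : ℕ} {c d : ℤ} {Δ : TT} (h : A N α.2.castSucc m c d Δ) :
    ∃ Q : V → P2, Hol m Q ∧ ∀ p (hp : p ∈ Tor) l, evT p hp l Δ =
      sx o α p ^ c * sy o α p ^ d * eval (l ᵥ* gF N o α p) (Q (tau o α p)) := by
  induction m generalizing c d Δ with
  | zero =>
    obtain ⟨u, hu, rfl⟩ := h
    obtain ⟨φ, h1, h2⟩ := good_B α hu
    exact ⟨_, hol_C h1, fun p hp l => by simp [h2]⟩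
  | succ m ih =>
    obtain ⟨a, b, ha, hb, rfl⟩ := h
    obtain ⟨Q₁, h1, k1⟩ := ih ha
    obtain ⟨Q₂, h2, k2⟩ := ih hb
    refine ⟨_, (h1.X_mul 0).add (h2.X_mul 1), fun p hp l => ?_⟩
    obtain ⟨a1, a2⟩ := mem_overlap.1 (Tor_overlap hp o α)
    have e : (3 * N : ℤ) = (N * 3 : ℕ) := by push_cast; ring
    have e' : (6 * N : ℤ) = (N * 6 : ℕ) := by push_cast; ring
    have hbe : evT p hp l (be N α.2.castSucc) * (sy o α p ^ N) ^ 6 = (l ᵥ* gF N o α p) 1 := by
      have e8 : (8 * N : ℤ) = (N * 8 : ℕ) := by push_cast; ring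
      obtain ⟨a, b⟩ := α
      fin_cases b
      · simp [be, vecMul_gF, sy_o, sg]
      · have := hp 1
        have e9 : evL p hp (wv N) = ch wT N o p * ((p 1 ^ N) ^ 8)⁻¹ := by
          rw [wv, map_mul, evL_lam, evL_mono, e8, _root_.zpow_neg, zpow_natCast, pow_mul]
          simp
        simp only [be, vecMul_gF, sy_o, sg]
        simp [e9]
        field_simp
        ring
    simp only [map_add, map_mul, evT_X, k1, k2, eval_X, ← hbe, zpow_add₀ a1, zpow_add₀ a2,
      zpow_sub₀ a2, e, e', zpow_natCast, pow_mul]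
    simp only [vecMul_gF, Matrix.cons_val_zero]
    field_simp

theorem sec_of_A {m : ℕ} {c d : ℤ} {Δ : TT} (h0 : A N 0 m c d Δ) (h1 : A N 1 m c d Δ) :
    ∃ Q, Sec N c d m Q ∧ ∀ α p (hp : p ∈ Tor) l, evT p hp l Δ =
      sx o α p ^ c * sy o α p ^ d * eval (l ᵥ* gF N o α p) (Q α (tau o α p)) := by
  have : ∀ α : Chart, A N α.2.castSucc m c d Δ := by
    rintro ⟨a, b⟩
    fin_cases b
    exacts [h0, h1]
  choose Q k1 k2 using fun α => good_A α (this α)
  exact ⟨Q, sec_of_tor k1 (fun p hp l => evT p hp l Δ) k2, k2⟩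

/-- the monomial which is `1` in the chart `α` -/
def top (α : Chart) (c d : ℤ) : Lam := mono (if α.1 = 0 then 0 else c) (if α.2 = 0 then 0 else d)

theorem top_B (α : Chart) {c d : ℤ} (hc : 0 ≤ c) (hd : 0 ≤ d) (I : Fin 3) : top α c d ∈ B I c d :=
  mono_B (by split_ifs <;> omega) (by split_ifs <;> omega) (fun _ => by split_ifs <;> omega)
    (fun _ => by split_ifs <;> omega)

theorem evL_top (α : Chart) (c d : ℤ) (p : V) (hp : p ∈ Tor) :
    evL p hp (top α c d) = sx o α p ^ c * sy o α p ^ d := by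
  rw [top, evL_mono, sx_o, sy_o]
  split_ifs <;> simp

theorem val2 {m : ℕ} {c d : ℤ} {Δ : TT} (h0 : A N 0 m c d Δ) (h1 : A N 1 m c d Δ) (α : Chart)
    (e : ev2 Δ = top α c (d + 6 * N * m)) (p : V) :
    ∃ Q, Sec N c d m Q ∧ eval ![0, 1] (Q α p) = 1 := by
  obtain ⟨Q, k1, k2⟩ := sec_of_A h0 h1
  refine ⟨Q, k1, eq_of_Tor (F := fun p => eval ![0, 1] (Q α p)) (G := fun _ => 1)
    ((k1.hol α).cont.comp (continuous_id.prodMk continuous_const)).continuousAt continuousAt_const
    (Eventually.of_forall fun q hq => ?_)⟩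
  have hq0 := tau_Tor hq α o
  have := k2 α _ hq0 ![0, 1]
  obtain ⟨a1, a2⟩ := mem_overlap.1 (Tor_overlap hq0 o α)
  have e1 : ![0, 1] ᵥ* gF N o α (tau α o q) = ((sy o α (tau α o q) ^ N) ^ 6) • ![0, 1] := by
    rw [vecMul_gF]; funext i; fin_cases i <;> simp
  have e' : (6 * N * m : ℤ) = (N * 6 * m : ℕ) := by push_cast; ring
  rw [evT_ev2, e, evL_top, e1, eval_hom ((k1.hol α).hom _), tau_tau, tau_self, zpow_add₀ a2, e',
    zpow_natCast, pow_mul, pow_mul] at this
  have b := mul_ne_zero (mul_ne_zero (zpow_ne_zero c a1) (zpow_ne_zero d a2))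
    (pow_ne_zero m (pow_ne_zero 6 (pow_ne_zero N a2)))
  apply mul_left_cancel₀ b
  linear_combination -this

theorem val1 {m : ℕ} {c d : ℤ} {Δ : TT} (h0 : A N 0 m c d Δ) (h1 : A N 1 m c d Δ) (α : Chart)
    (e : ev1 N Δ = top α (c + 6 * N * m) d) (p : V) :
    ∃ Q, Sec N c d m Q ∧ eval (vq N α p) (Q α p) = 1 := by
  obtain ⟨Q, k1, k2⟩ := sec_of_A h0 h1
  have hv : Continuous (vq N α) := by
    have h1 := (differentiable_ch fT N α).continuous
    have h2 := (differentiable_ch (pT α.2) N α).continuous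
    refine continuous_pi fun i => ?_
    fin_cases i
    exacts [h1, h2]
  refine ⟨Q, k1, eq_of_Tor (F := fun p => eval (vq N α p) (Q α p)) (G := fun _ => 1)
    ((k1.hol α).cont.comp (continuous_id.prodMk hv)).continuousAt continuousAt_const
    (Eventually.of_forall fun q hq => ?_)⟩
  have hq0 := tau_Tor hq α o
  have := k2 α _ hq0 (vq N o (tau α o q))
  obtain ⟨a1, a2⟩ := mem_overlap.1 (Tor_overlap hq0 o α)
  have e' : (6 * N * m : ℤ) = (N * 6 * m : ℕ) := by push_cast; ring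
  rw [evT_ev1, e, evL_top, vq_trans (Tor_overlap hq0 o α), eval_hom ((k1.hol α).hom _), tau_tau,
    tau_self, zpow_add₀ a1, e', zpow_natCast, pow_mul, pow_mul] at this
  have b := mul_ne_zero (mul_ne_zero (zpow_ne_zero c a1) (zpow_ne_zero d a2))
    (pow_ne_zero m (pow_ne_zero 6 (pow_ne_zero N a1)))
  apply mul_left_cancel₀ b
  linear_combination -this

theorem gg (hN : N ≠ 0) (m : ℕ) {c d : ℤ}
    (h : (10 * N ≤ c ∧ 3 * N ≤ d) ∨ (13 * N ≤ c ∧ 0 ≤ d)) (α : Chart) (p : V) {R : P2}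
    (hR : R.IsHomogeneous m) : ∃ Q, Sec N c d m Q ∧ Q α p = R := by
  induction m generalizing c d R with
  | zero =>
    have hB := top_B α (c := c) (d := d) (by omega) (by omega)
    obtain ⟨Q, k1, k2⟩ := val2 (N := N) (m := 0) ⟨_, hB 0, rfl⟩ ⟨_, hB 1, rfl⟩ α (by simp) p
    obtain ⟨a, rfl⟩ := hom_zero hR
    obtain ⟨b, hb⟩ := hom_zero ((k1.hol α).hom p)
    refine ⟨_, k1.smul a, ?_⟩
    rw [hb, eval_C] at k2
    simp [hb, k2]
  | succ m ih =>
    have hm : (0 : ℤ) ≤ 6 * N * (m + 1 : ℕ) := by positivity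
    have step : ∀ (v : V) (c' d' c'' d'' : ℤ) (S Q : Chart → V → P2), v ≠ 0 → Sec N c' d' 1 S →
        S α p = C (v 0) * X 1 - C (v 1) * X 0 → Sec N c d (m + 1) Q → eval v (Q α p) = 1 →
        c' + c'' = c → d' + d'' = d →
        ((10 * N ≤ c'' ∧ 3 * N ≤ d'') ∨ (13 * N ≤ c'' ∧ 0 ≤ d'')) →
        ∃ Q, Sec N c d (m + 1) Q ∧ Q α p = R := by
      intro v c' d' c'' d'' S Q hv hS eS hQ eQ e1 e2 h'
      obtain ⟨R', k1, k2⟩ := fib hv (hR.sub (((hQ.hol α).hom p).C_mul (eval v R)))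
        (by simp [eQ])
      obtain ⟨Q', k3, k4⟩ := ih h' k1
      have := hS.mul k3
      rw [e1, e2, add_comm] at this
      refine ⟨_, this.add (hQ.smul (eval v R)), ?_⟩
      simp only [k4, eS, ← k2]
      ring
    rcases h with h | h
    · have hB := top_B α (c := c) (d := d + 6 * N * (m + 1 : ℕ)) (by omega) (by omega)
      obtain ⟨Δ, a0, a1, e⟩ := glob2 (ff_ne hN) h.1 h.2 (hB 0) (hB 1)
      obtain ⟨Q, k1, k2⟩ := val2 a0 a1 α e p
      refine step ![0, 1] _ _ (c + 3 * N) (d - 3 * N) _ Q (by simp) (sec_a.smul (-1)) ?_ k1 k2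
        (by ring) (by ring) (by omega)
      simp
    · have hB := top_B α (c := c + 6 * N * (m + 1 : ℕ)) (d := d) (by omega) (by omega)
      obtain ⟨Δ, a0, a1, e⟩ := glob1 (ff_ne hN) h.1 h.2 (hB 0) (hB 1)
      obtain ⟨Q, k1, k2⟩ := val1 a0 a1 α e p
      exact step (vq N α p) _ _ (c - 3 * N) (d + 3 * N) _ Q (vq_ne α p) sec_s rfl k1 k2
        (by ring) (by ring) (by omega)

theorem eval_frameSubst (M : Matrix (Fin 2) (Fin 2) ℂ) (R : P2) (l : V) :
    eval l (frameSubst M R) = eval (l ᵥ* M) R := by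
  induction R using MvPolynomial.induction_on with
  | C u => simp [frameSubst]
  | add a b ha hb => simp only [frameSubst, map_add] at *; rw [ha, hb]
  | mul_X a i ha =>
    simp only [frameSubst, map_mul] at *
    rw [ha]
    simp [vecMul, dotProduct, mul_comm]

theorem gE_ample (hN : N ≠ 0) : IsAmple (gE N) := by
  intro k
  refine ⟨k + 13 * N, fun n hn α p R hR => ?_⟩
  obtain ⟨Q, k1, k2⟩ := gg hN n (c := n - k) (d := n - k) (by omega) α p hR
  refine ⟨Q, ⟨fun α => (k1.hol α).hom, fun α => (k1.hol α).diff, fun α β p hp => ?_⟩, k2⟩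
  obtain ⟨a1, a2⟩ := mem_overlap.1 hp
  refine MvPolynomial.funext fun l => ?_
  rw [k1.compat α β p hp, smul_eval, eval_frameSubst, gE, vecMul_smul,
    eval_hom ((k1.hol β).hom _), lineTrans_eq, zpow_sub₀ a1, zpow_sub₀ a2, _root_.zpow_neg, _root_.zpow_neg]
  simp only [zpow_natCast, mul_pow]
  field_simp

end Crest.Agent.R258
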