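import Crest.Agent.R258.Tabs
import Crest.Prelude.Def_QuadricBundle

/-! Row 258: the bundles `E_N`. -/

set_option autoImplicit false
set_option linter.unusedSimpArgs false
set_option linter.unusedVariables false

noncomputable section

namespace Crest.Agent.R258
open Crest.AlgGeometry.QuadricBundle

abbrev V : Type := Fin 2 → ℂ

namespace BiF
variable {k l : ℕ} (P : BiF k l)

theorem ev_ind {R : Type*} [CommRing R] (ω : R) (X Y : Fin 2 → R) (S : AddSubmonoid R)
    (h : ∀ (A B : ℤ) (i j : ℕ), i ≤ k → j ≤ l → BiF.tm k l ω X Y (A, B, i, j) ∈ S) :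
    P.ev ω X Y ∈ S := by
  unfold ev
  refine list_sum_mem ?_
  intro x hx
  obtain ⟨e, he, rfl⟩ := List.mem_map.1 hx
  exact h _ _ _ _ (P.ok e he).1 (P.ok e he).2

theorem map_ev {R S F : Type*} [CommRing R] [CommRing S] [FunLike F R S] [RingHomClass F R S]
    (φ : F) (ω : R) (X Y : Fin 2 → R) :
    φ (P.ev ω X Y) = P.ev (φ ω) (fun i => φ (X i)) (fun i => φ (Y i)) := by
  unfold ev
  rw [map_list_sum, List.map_map]
  congr 2
  funext e
  simp [tm]

theorem ev_smul {R : Type*} [CommRing R] (ω s t : R) (X Y : Fin 2 → R) :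
    P.ev ω (s • X) (t • Y) = s ^ k * t ^ l * P.ev ω X Y := by
  unfold ev
  rw [← List.sum_map_mul_left]
  congr 1
  refine List.map_congr_left fun e he => ?_
  obtain ⟨h1, h2⟩ := P.ok e he
  obtain ⟨u, hu⟩ := Nat.exists_eq_add_of_le h1
  obtain ⟨v, hv⟩ := Nat.exists_eq_add_of_le h2
  simp only [tm, Pi.smul_apply, smul_eq_mul]
  have a1 : k - e.2.2.1 = u := by omega
  have a2 : l - e.2.2.2 = v := by omega
  rw [a1, a2]
  generalize e.2.2.1 = i at *
  generalize e.2.2.2 = j at *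
  subst hu hv
  ring

theorem ev_smul_left {R : Type*} [CommRing R] (ω s : R) (X Y : Fin 2 → R) :
    P.ev ω (s • X) Y = s ^ k * P.ev ω X Y := by
  simpa using P.ev_smul ω s 1 X Y

theorem ev_smul_right {R : Type*} [CommRing R] (ω t : R) (X Y : Fin 2 → R) :
    P.ev ω X (t • Y) = t ^ l * P.ev ω X Y := by
  simpa using P.ev_smul ω 1 t X Y

theorem ev_fun {Z : Type*} (ω : ℂ) (X Y : Z → V) :
    (fun z => P.ev ω (X z) (Y z)) =
      P.ev (fun _ => ω) (fun i z => X z i) (fun i z => Y z i) := by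
  funext z
  exact (P.map_ev (Pi.evalRingHom (fun _ : Z => ℂ) z) (fun _ => ω) (fun i z => X z i)
    (fun i z => Y z i)).symm

@[fun_prop]
theorem continuousAt_ev {Z : Type*} [TopologicalSpace Z] (ω : ℂ) (X Y : Z → V) (z : Z)
    (hX : ContinuousAt X z) (hY : ContinuousAt Y z) :
    ContinuousAt (fun z => P.ev ω (X z) (Y z)) z := by
  rw [ev_fun]
  let S : AddSubmonoid (Z → ℂ) :=
    { carrier := {F | ContinuousAt F z}
      add_mem' := fun ha hb => ContinuousAt.add ha hb
      zero_mem' := continuousAt_const }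
  refine P.ev_ind _ _ _ S fun A B i j _ _ => ?_
  change ContinuousAt (fun z => ((A : ℂ) + (B : ℂ) * ω) * (X z 0 ^ (k - i) * X z 1 ^ i *
    (Y z 0 ^ (l - j) * Y z 1 ^ j))) z
  have h1 := continuousAt_pi.1 hX
  have h2 := continuousAt_pi.1 hY
  exact continuousAt_const.mul ((((h1 0).pow _).mul ((h1 1).pow _)).mul
    (((h2 0).pow _).mul ((h2 1).pow _)))

@[fun_prop]
theorem continuous_ev {Z : Type*} [TopologicalSpace Z] (ω : ℂ) (X Y : Z → V)
    (hX : Continuous X) (hY : Continuous Y) :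
    Continuous (fun z => P.ev ω (X z) (Y z)) :=
  continuous_iff_continuousAt.2 fun z => P.continuousAt_ev ω X Y z hX.continuousAt hY.continuousAt

@[fun_prop]
theorem differentiableAt_ev {Z : Type*} [NormedAddCommGroup Z] [NormedSpace ℂ Z] (ω : ℂ)
    (X Y : Z → V) (z : Z) (hX : DifferentiableAt ℂ X z) (hY : DifferentiableAt ℂ Y z) :
    DifferentiableAt ℂ (fun z => P.ev ω (X z) (Y z)) z := by
  rw [ev_fun]
  let S : AddSubmonoid (Z → ℂ) :=
    { carrier := {F | DifferentiableAt ℂ F z}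
      add_mem' := fun ha hb => DifferentiableAt.add ha hb
      zero_mem' := differentiableAt_const _ }
  refine P.ev_ind _ _ _ S fun A B i j _ _ => ?_
  change DifferentiableAt ℂ (fun z => ((A : ℂ) + (B : ℂ) * ω) * (X z 0 ^ (k - i) * X z 1 ^ i *
    (Y z 0 ^ (l - j) * Y z 1 ^ j))) z
  fun_prop

@[fun_prop]
theorem differentiable_ev {Z : Type*} [NormedAddCommGroup Z] [NormedSpace ℂ Z] (ω : ℂ)
    (X Y : Z → V) (hX : Differentiable ℂ X) (hY : Differentiable ℂ Y) :
    Differentiable ℂ (fun z => P.ev ω (X z) (Y z)) :=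
  fun z => P.differentiableAt_ev ω X Y z (hX z) (hY z)

end BiF

def pT (b : Fin 2) : BiF 6 2 := ![p0T, p1T] b
def qT (a : Fin 2) : BiF 2 6 := ![q0T, q1T] a
def rT (a b : Fin 2) : BiF 5 5 := ![![r00T, r01T], ![r10T, r11T]] a b

/-- sign coefficient -/
def sg (R : Type*) [CommRing R] (b b' : Fin 2) : R := ((b : ℕ) : R) - ((b' : ℕ) : R)

section ids
variable {R : Type*} [CommRing R] {ω : R} (hω : ω ^ 2 = ω - 1) (X Y : Fin 2 → R)
include hω

theorem id_r (a b : Fin 2) : X a ^ 8 * Y b ^ 8 =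
    (qT a).ev ω X Y * (pT b).ev ω X Y + fT.ev ω X Y * (rT a b).ev ω X Y := by
  fin_cases a <;> fin_cases b
  exacts [id_r00 hω X Y, id_r01 hω X Y, id_r10 hω X Y, id_r11 hω X Y]

theorem id_p (b : Fin 2) (i : Fin 3) : (pT b).ev ω X (gv ω i X) = gv ω i X b ^ 8 := by
  fin_cases b <;> fin_cases i
  exacts [id_p00 hω X, id_p01 hω X, id_p02 hω X, id_p10 hω X, id_p11 hω X, id_p12 hω X]

theorem id_pw (b b' : Fin 2) : Y b ^ 8 * (pT b').ev ω X Y =
    Y b' ^ 8 * (pT b).ev ω X Y + sg R b b' * wT.ev ω X Y * fT.ev ω X Y := by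
  have h := id_w hω X Y
  fin_cases b <;> fin_cases b'
  · simp [sg]
  · simp only [sg, pT]; simp; linear_combination -h
  · simp only [sg, pT]; simp; linear_combination h
  · simp [sg]

end ids

def om : ℂ := ⟨1 / 2, Real.sqrt 3 / 2⟩

theorem om_sq : om ^ 2 = om - 1 := by
  have h : Real.sqrt 3 * Real.sqrt 3 = 3 := Real.mul_self_sqrt (by norm_num)
  apply Complex.ext <;> simp [om, pow_two] <;> nlinarith

/-- homogeneous coordinates in a chart -/
def hc (a : Fin 2) (x : ℂ) : V := if a = 0 then ![1, x] else ![x, 1]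

/-- coordinatewise power -/
def pw {R : Type*} [Monoid R] (N : ℕ) (X : Fin 2 → R) : Fin 2 → R := fun i => X i ^ N

@[simp] theorem pw_apply {R : Type*} [Monoid R] (N : ℕ) (X : Fin 2 → R) (i : Fin 2) :
    pw N X i = X i ^ N := rfl

theorem pw_smul (N : ℕ) (s : ℂ) (X : V) : pw N (s • X) = s ^ N • pw N X := by
  funext i; simp [mul_pow]

@[fun_prop] theorem differentiable_pw (N : ℕ) : Differentiable ℂ (pw N : V → V) := by
  unfold pw; fun_prop

@[fun_prop] theorem continuous_pw (N : ℕ) : Continuous (pw N : V → V) :=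
  (differentiable_pw N).continuous

@[fun_prop] theorem differentiable_hc (a : Fin 2) : Differentiable ℂ (hc a) := by
  unfold hc
  split_ifs
  all_goals
    refine differentiable_pi.2 fun i => ?_
    fin_cases i <;> simp

@[fun_prop] theorem continuous_hc (a : Fin 2) : Continuous (hc a) :=
  (differentiable_hc a).continuous

@[simp] theorem hc_self (a : Fin 2) (x : ℂ) : hc a x a = 1 := by
  fin_cases a <;> simp [hc]

theorem hc_of_ne {a a' : Fin 2} (h : a ≠ a') (x : ℂ) : hc a x a' = x := by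
  fin_cases a <;> fin_cases a' <;> simp_all [hc]

theorem hc_eq (a a' : Fin 2) (x : ℂ) : hc a x a' = if a = a' then 1 else x := by
  split_ifs with h
  · subst h; simp
  · exact hc_of_ne h x

theorem hc_inv {a a' : Fin 2} {x : ℂ} (hx : a ≠ a' → x ≠ 0) :
    hc a' (if a = a' then x else x⁻¹) = (hc a x a')⁻¹ • hc a x := by
  by_cases h : a = a'
  · subst h; simp
  · have := hx h
    funext i
    fin_cases a <;> fin_cases a' <;> fin_cases i <;> simp_all [hc]

/-- the `x`-scalar of a chart change -/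
def sx (α β : Chart) (p : V) : ℂ := hc α.1 (p 0) β.1
/-- the `y`-scalar of a chart change -/
def sy (α β : Chart) (p : V) : ℂ := hc α.2 (p 1) β.2

theorem mem_overlap {α β : Chart} {p : V} : p ∈ overlap α β ↔ sx α β p ≠ 0 ∧ sy α β p ≠ 0 := by
  simp only [overlap, sx, sy, hc_eq, Set.mem_ofPred_eq]
  by_cases h1 : α.1 = β.1 <;> by_cases h2 : α.2 = β.2 <;> simp [h1, h2]

theorem hc_tau0 {α β : Chart} {p : V} (h : p ∈ overlap α β) :
    hc β.1 (tau α β p 0) = (sx α β p)⁻¹ • hc α.1 (p 0) := hc_inv h.1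

theorem hc_tau1 {α β : Chart} {p : V} (h : p ∈ overlap α β) :
    hc β.2 (tau α β p 1) = (sy α β p)⁻¹ • hc α.2 (p 1) := hc_inv h.2

theorem sx_tau {α β : Chart} (γ : Chart) {p : V} (h : p ∈ overlap α β) :
    sx β γ (tau α β p) = (sx α β p)⁻¹ * sx α γ p := by
  rw [sx, hc_tau0 h]; rfl

theorem sy_tau {α β : Chart} (γ : Chart) {p : V} (h : p ∈ overlap α β) :
    sy β γ (tau α β p) = (sy α β p)⁻¹ * sy α γ p := by
  rw [sy, hc_tau1 h]; rfl

theorem lineTrans_eq (r t : ℤ) (α β : Chart) (p : V) :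
    lineTrans r t α β p = sx α β p ^ r * sy α β p ^ t := by
  simp only [lineTrans, sx, sy, hc_eq]
  split_ifs <;> simp

/-- a biform pulled back by the power map, in chart coordinates -/
def ch {k l : ℕ} (P : BiF k l) (N : ℕ) (α : Chart) (p : V) : ℂ :=
  P.ev om (pw N (hc α.1 (p 0))) (pw N (hc α.2 (p 1)))

@[fun_prop] theorem differentiable_ch {k l : ℕ} (P : BiF k l) (N : ℕ) (α : Chart) :
    Differentiable ℂ (ch P N α) := by
  unfold ch; fun_prop

theorem ch_tau {k l : ℕ} (P : BiF k l) (N : ℕ) {α β : Chart} {p : V} (h : p ∈ overlap α β) :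
    ch P N β (tau α β p) = ((sx α β p ^ N)⁻¹) ^ k * ((sy α β p ^ N)⁻¹) ^ l * ch P N α p := by
  rw [ch, hc_tau0 h, hc_tau1 h, pw_smul, pw_smul, BiF.ev_smul, ch]
  simp only [inv_pow]

/-- transition matrices of `F_N` -/
def gF (N : ℕ) : Transition 2 := fun α β p =>
  !![(sx α β p ^ N) ^ 3 * ((sy α β p ^ N)⁻¹) ^ 3,
      sg ℂ α.2 β.2 * ch wT N α p * ((sy α β p ^ N)⁻¹) ^ 2;
     0, (sy α β p ^ N) ^ 6]

/-- transition matrices of `E_N = F_N(1,1)` -/
def gE (N : ℕ) : Transition 2 := fun α β p => (sx α β p * sy α β p) • gF N α β p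

theorem sg_rel (b b' b'' : Fin 2) (Y : V) (hb : Y b = 1) :
    sg ℂ b' b'' * Y b ^ 8 + sg ℂ b b' * Y b'' ^ 8 = sg ℂ b b'' * Y b' ^ 8 := by
  fin_cases b <;> fin_cases b' <;> fin_cases b'' <;> simp [sg]

theorem gF_cocycle (N : ℕ) (α β γ : Chart) (p : V) (h1 : p ∈ overlap α β) (h2 : p ∈ overlap α γ) :
    gF N α β p * gF N β γ (tau α β p) = gF N α γ p := by
  obtain ⟨a1, a2⟩ := mem_overlap.1 h1
  obtain ⟨a3, a4⟩ := mem_overlap.1 h2
  have key := sg_rel α.2 β.2 γ.2 (pw N (hc α.2 (p 1))) (by simp)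
  simp only [pw_apply, hc_self, one_pow, mul_one] at key
  change sg ℂ β.2 γ.2 + sg ℂ α.2 β.2 * (sy α γ p ^ N) ^ 8 =
    sg ℂ α.2 γ.2 * (sy α β p ^ N) ^ 8 at key
  simp only [gF, sx_tau γ h1, sy_tau γ h1, ch_tau wT N h1, mul_pow, inv_pow]
  have b1 := pow_ne_zero N a1
  have b2 := pow_ne_zero N a2
  have b3 := pow_ne_zero N a3
  have b4 := pow_ne_zero N a4
  generalize sx α β p ^ N = S1 at *
  generalize sy α β p ^ N = T1 at *
  generalize sx α γ p ^ N = S3 at *
  generalize sy α γ p ^ N = T3 at *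
  ext i j
  fin_cases i <;> fin_cases j <;> simp [Matrix.mul_apply, Fin.sum_univ_two]
  · field_simp
  · field_simp
    linear_combination (ch wT N α p) * key
  · field_simp

theorem gE_cocycle (N : ℕ) : IsHoloCocycle (gE N) where
  refl α p := by
    ext i j
    fin_cases i <;> fin_cases j <;> simp [gE, gF, sx, sy, sg]
  holo α β i j := by
    intro p hp
    obtain ⟨a1, a2⟩ := mem_overlap.1 hp
    have b2 := pow_ne_zero N a2
    have d1 : Differentiable ℂ (sx α β) := by unfold sx; fun_prop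
    have d2 : Differentiable ℂ (sy α β) := by unfold sy; fun_prop
    apply DifferentiableAt.differentiableWithinAt
    fin_cases i <;> fin_cases j <;> simp [gE, gF] <;> fun_prop (disch := simp [a2])
  cocycle α β γ p hp := by
    obtain ⟨a1, a2⟩ := mem_overlap.1 hp.1
    simp only [gE, Matrix.smul_mul, Matrix.mul_smul, gF_cocycle N α β γ p hp.1 hp.2,
      sx_tau γ hp.1, sy_tau γ hp.1, smul_smul]
    congr 1
    field_simp

end Crest.Agent.R258
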