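import Crest.Agent.R258.Data

/-! Row 258: dual norms of a Hermitian metric of rank two; no local maxima. -/

set_option autoImplicit false
set_option linter.unusedSimpArgs false
set_option linter.unusedVariables false

noncomputable section

namespace Crest.Agent.R258
open Filter Topology Matrix Crest.AlgGeometry.QuadricBundle
open scoped ComplexConjugate ComplexOrder

abbrev M2 : Type := Matrix (Fin 2) (Fin 2) ℂ

def bq (M : M2) (u v : V) : ℂ := ∑ i, ∑ j, M i j * u i * conj (v j)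
def nq (M : M2) (v : V) : ℝ := (bq M v v).re
def dq (M : M2) (l : V) : ℝ := nq M ![-l 1, l 0] / (det M).re
def dn (M : M2) (l : V) : ℝ := Real.sqrt (dq M l)
def pr (l v : V) : ℂ := l 0 * v 0 + l 1 * v 1

variable {M : M2}

theorem bq_pos (hM : M.PosDef) {v : V} (hv : v ≠ 0) : 0 < bq M v v := by
  have := hM.dotProduct_mulVec_pos (x := star v) (by simpa using hv)
  convert this using 1
  simp [bq, dotProduct, mulVec, Fin.sum_univ_two]
  ring

theorem nq_pos (hM : M.PosDef) {v : V} (hv : v ≠ 0) : 0 < nq M v :=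
  (Complex.pos_iff.1 (bq_pos hM hv)).1

theorem nq_nonneg (hM : M.PosDef) (v : V) : 0 ≤ nq M v := by
  by_cases hv : v = 0
  · simp [hv, nq, bq]
  · exact (nq_pos hM hv).le

theorem bq_self (hM : M.PosDef) (v : V) : bq M v v = nq M v := by
  by_cases hv : v = 0
  · simp [hv, nq, bq]
  · exact Complex.ext rfl (by simpa using (Complex.pos_iff.1 (bq_pos hM hv)).2.symm)

theorem det_re_pos (hM : M.PosDef) : 0 < (det M).re := (Complex.pos_iff.1 hM.det_pos).1

theorem bq_conj (hM : M.PosDef) (u v : V) : bq M v u = conj (bq M u v) := by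
  have h := hM.isHermitian
  have h' : ∀ i j, conj (M i j) = M j i := fun i j => h.apply j i
  simp [bq, Fin.sum_univ_two, h']
  ring

theorem gram (hM : M.PosDef) (u v : V) :
    nq M u * nq M v - ‖bq M u v‖ ^ 2 = (det M).re * ‖dt u v‖ ^ 2 := by
  have h1 : bq M u u * bq M v v - bq M u v * bq M v u = det M * (dt u v * conj (dt u v)) := by
    simp [bq, dt, Fin.sum_univ_two, det_fin_two]
    ring
  have h2 : det M = ((det M).re : ℂ) :=
    Complex.ext rfl (by simpa using (Complex.pos_iff.1 hM.det_pos).2.symm)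
  rw [bq_self hM, bq_self hM, bq_conj hM u v, Complex.mul_conj', Complex.mul_conj', h2] at h1
  exact_mod_cast h1

theorem dq_nonneg (hM : M.PosDef) (l : V) : 0 ≤ dq M l :=
  div_nonneg (nq_nonneg hM _) (det_re_pos hM).le

theorem dq_ineq (hM : M.PosDef) (l v : V) : ‖pr l v‖ ^ 2 ≤ dq M l * nq M v := by
  have := gram hM v ![-l 1, l 0]
  have e : dt v ![-l 1, l 0] = pr l v := by simp [dt, pr]; ring
  rw [dq, div_mul_eq_mul_div, le_div_iff₀ (det_re_pos hM)]
  rw [e] at this
  nlinarith [sq_nonneg ‖bq M v ![-l 1, l 0]‖]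

theorem J_ne {l : V} (hl : l ≠ 0) : (![-l 1, l 0] : V) ≠ 0 := by
  intro h
  have h0 := congrFun h 0
  have h1 := congrFun h 1
  apply hl
  funext i
  fin_cases i <;> simp_all

theorem dq_eq (hM : M.PosDef) (l : V) : ∃ v : V, v ≠ 0 ∧ ‖pr l v‖ ^ 2 = dq M l * nq M v := by
  by_cases hl : l = 0
  · exact ⟨![1, 0], by simp, by simp [hl, pr, dq, nq, bq]⟩
  set u : V := ![-l 1, l 0] with hu
  refine ⟨![∑ j, M 1 j * conj (u j), -∑ j, M 0 j * conj (u j)], ?_, ?_⟩
  · intro h
    have h0 := congrFun h 0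
    have h1 := congrFun h 1
    have := (bq_pos hM (J_ne hl)).ne'
    apply this
    rw [← hu]
    simp only [bq, Fin.sum_univ_two, Matrix.cons_val_zero, Matrix.cons_val_one, Pi.zero_apply]
      at h0 h1 ⊢
    linear_combination u 1 * h0 - u 0 * h1
  · generalize hv : (![∑ j, M 1 j * conj (u j), -∑ j, M 0 j * conj (u j)] : V) = v
    have := gram hM v u
    have e : dt v u = pr l v := by simp [dt, pr, hu]; ring
    have e0 : bq M v u = 0 := by
      rw [← hv]
      simp only [bq, Fin.sum_univ_two, Matrix.cons_val_zero, Matrix.cons_val_one]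
      ring
    rw [dq, div_mul_eq_mul_div, eq_div_iff (det_re_pos hM).ne', ← hu]
    rw [e, e0] at this
    simp only [norm_zero] at this
    linarith

theorem dn_nonneg (M : M2) (l : V) : 0 ≤ dn M l := Real.sqrt_nonneg _

theorem dn_sq (hM : M.PosDef) (l : V) : dn M l ^ 2 = dq M l := Real.sq_sqrt (dq_nonneg hM l)

theorem dn_pos (hM : M.PosDef) {l : V} (hl : l ≠ 0) : 0 < dn M l :=
  Real.sqrt_pos.2 (div_pos (nq_pos hM (J_ne hl)) (det_re_pos hM))

theorem dn_ineq (hM : M.PosDef) (l v : V) : ‖pr l v‖ ≤ dn M l * Real.sqrt (nq M v) := by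
  rw [dn, ← Real.sqrt_mul (dq_nonneg hM l)]
  exact Real.le_sqrt_of_sq_le (dq_ineq hM l v)

theorem dn_le (hM : M.PosDef) {l : V} {K : ℝ} (h : ∀ v, ‖pr l v‖ ≤ K * Real.sqrt (nq M v)) :
    dn M l ≤ K := by
  obtain ⟨v, hv, e⟩ := dq_eq hM l
  have h1 : ‖pr l v‖ = dn M l * Real.sqrt (nq M v) := by
    rw [dn, ← Real.sqrt_mul (dq_nonneg hM l), ← e, Real.sqrt_sq (norm_nonneg _)]
  have := h v
  rw [h1] at this
  exact le_of_mul_le_mul_right this (Real.sqrt_pos.2 (nq_pos hM hv))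

theorem dn_add (hM : M.PosDef) (l l' : V) : dn M (l + l') ≤ dn M l + dn M l' := by
  refine dn_le hM fun v => ?_
  have e : pr (l + l') v = pr l v + pr l' v := by simp [pr]; ring
  rw [e, add_mul]
  exact (norm_add_le _ _).trans (add_le_add (dn_ineq hM l v) (dn_ineq hM l' v))

theorem dn_smul (M : M2) (c : ℂ) (l : V) : dn M (c • l) = ‖c‖ * dn M l := by
  have e : bq M ![-(c • l) 1, (c • l) 0] ![-(c • l) 1, (c • l) 0] =
      ((‖c‖ ^ 2 : ℝ) : ℂ) * bq M ![-l 1, l 0] ![-l 1, l 0] := by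
    push_cast
    rw [← Complex.mul_conj']
    simp [bq, Fin.sum_univ_two]
    ring
  rw [dn, dq, nq, e, Complex.re_ofReal_mul, mul_div_assoc, Real.sqrt_mul (by positivity),
    Real.sqrt_sq (norm_nonneg _)]
  rfl

theorem dn_change (hM : M.PosDef) {M' g : M2} (hM' : M'.PosDef)
    (e : M' = g.transpose * M * g.map conj) (l : V) : dn M' (l ᵥ* g) ≤ dn M l := by
  refine dn_le hM' fun v => ?_
  have e1 : pr (l ᵥ* g) v = pr l (g *ᵥ v) := by
    simp [pr, vecMul, mulVec, dotProduct, Fin.sum_univ_two]; ring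
  have e2 : nq M' v = nq M (g *ᵥ v) := by
    rw [nq, nq, e]
    congr 1
    simp [bq, mulVec, dotProduct, Fin.sum_univ_two, Matrix.mul_apply]
    ring
  rw [e1, e2]
  exact dn_ineq hM _ _

theorem continuousAt_dn {Z : Type*} [TopologicalSpace Z] {F : Z → M2} {l : Z → V} {z : Z}
    (hF : ∀ i j, ContinuousAt (fun z => F z i j) z) (hl : ContinuousAt l z) (hp : (F z).PosDef) :
    ContinuousAt (fun z => dn (F z) (l z)) z := by
  have h0 := continuousAt_pi.1 hl 0
  have h1 := continuousAt_pi.1 hl 1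
  have hc := Complex.continuous_conj
  have hr := Complex.continuous_re
  refine Real.continuous_sqrt.continuousAt.comp (ContinuousAt.div ?_ ?_ (det_re_pos hp).ne')
  · simp only [nq, bq, Fin.sum_univ_two, Matrix.cons_val_zero, Matrix.cons_val_one]
    have a := hF 0 0; have b := hF 0 1; have c := hF 1 0; have d := hF 1 1
    refine hr.continuousAt.comp ?_
    exact (((a.mul h1.neg).mul (hc.continuousAt.comp h1.neg)).add
      ((b.mul h1.neg).mul (hc.continuousAt.comp h0))).add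
      (((c.mul h0).mul (hc.continuousAt.comp h1.neg)).add
      ((d.mul h0).mul (hc.continuousAt.comp h0)))
  · simp only [det_fin_two]
    exact hr.continuousAt.comp (((hF 0 0).mul (hF 1 1)).sub ((hF 0 1).mul (hF 1 0)))

theorem sd_nonneg {G : ℝ → ℝ} (h : IsLocalMin G 0) (hc : ContinuousAt G 0) :
    0 ≤ deriv (deriv G) 0 := by
  by_contra hlt
  push Not at hlt
  have h2 := isLocalMax_of_deriv_deriv_neg hlt h.deriv_eq_zero hc
  have h3 : G =ᶠ[𝓝 0] fun _ => G 0 := by
    filter_upwards [h, h2] with t a b using le_antisymm b a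
  have h4 := h3.deriv.deriv.eq_of_nhds
  simp [h4] at hlt

theorem sd_re {Φ : ℂ → ℂ} (h : AnalyticAt ℂ Φ 0) (c : ℂ) :
    deriv (deriv (fun t : ℝ => (Φ ((t : ℂ) * c)).re)) 0 = (c ^ 2 * deriv (deriv Φ) 0).re := by
  have key : ∀ {Ψ : ℂ → ℂ} (t : ℝ), DifferentiableAt ℂ Ψ ((t : ℂ) * c) →
      HasDerivAt (fun t : ℝ => (Ψ ((t : ℂ) * c)).re) (c * deriv Ψ ((t : ℂ) * c)).re t := by
    intro Ψ t hΨ
    have h1 : HasDerivAt (fun z : ℂ => Ψ (z * c)) (deriv Ψ ((t : ℂ) * c) * c) (t : ℂ) := by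
      have := hΨ.hasDerivAt.comp (t : ℂ) ((hasDerivAt_id (t : ℂ)).mul_const c)
      rw [one_mul] at this
      exact this
    simpa [mul_comm] using h1.real_of_complex
  have c1 : Tendsto (fun t : ℝ => (t : ℂ) * c) (𝓝 0) (𝓝 0) := by
    have : Continuous (fun t : ℝ => (t : ℂ) * c) := by fun_prop
    simpa using this.tendsto 0
  have e1 : deriv (fun t : ℝ => (Φ ((t : ℂ) * c)).re) =ᶠ[𝓝 0]
      fun t : ℝ => (c * deriv Φ ((t : ℂ) * c)).re := by
    filter_upwards [c1.eventually h.eventually_analyticAt] with t ht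
    exact (key t ht.differentiableAt).deriv
  rw [e1.deriv_eq]
  have h2 : DifferentiableAt ℂ (fun z => c * deriv Φ z) (((0 : ℝ) : ℂ) * c) := by
    simpa using h.deriv.differentiableAt.const_mul c
  rw [(key 0 h2).deriv]
  simp [deriv_const_mul_field', pow_two, mul_assoc]

theorem no_max {g : Transition 2} {H : MetricData 2} (hH : IsHermitianMetric g H)
    (hG : IsGriffithsPositive H) (α : Chart) (p ζ : V) (hζ : ζ ≠ 0) {l : ℂ → V}
    (hl : ∀ i, AnalyticAt ℂ (fun t => l t i) 0) (hl0 : l 0 ≠ 0) :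
    ¬ IsLocalMax (fun t : ℂ => dn (H α (p + t • ζ)) (l t)) 0 := by
  intro hmax
  obtain ⟨v, hv, ev⟩ := dq_eq (hH.posDef α p) (l 0)
  obtain ⟨U, s, hU, hp, hs, rfl, hlevi⟩ := hG α p ζ v hζ hv
  have c1 : ContinuousAt (fun t : ℂ => p + t • ζ) 0 := by fun_prop
  have hsa : ∀ i, AnalyticAt ℂ (fun t : ℂ => s (p + t • ζ) i) 0 := by
    intro i
    rw [Complex.analyticAt_iff_eventually_differentiableAt]
    have : ∀ᶠ t : ℂ in 𝓝 0, p + t • ζ ∈ U := c1.eventually (by simpa using hU.mem_nhds hp)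
    filter_upwards [this] with t ht
    have h1 : DifferentiableAt ℂ s (p + t • ζ) := hs.differentiableAt (hU.mem_nhds ht)
    have h2 : DifferentiableAt ℂ (fun t : ℂ => s (p + t • ζ)) t :=
      h1.comp t (f := fun t : ℂ => p + t • ζ) (by fun_prop)
    exact differentiableAt_pi.1 h2 i
  set κ : ℂ → ℂ := fun t => pr (l t) (s (p + t • ζ)) with hκ
  have hκa : AnalyticAt ℂ κ 0 := ((hl 0).mul (hsa 0)).add ((hl 1).mul (hsa 1))
  set σ : ℂ → ℝ := fun t => nq (H α (p + t • ζ)) (s (p + t • ζ)) with hσ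
  have hσc : ContDiffAt ℝ 2 σ 0 := by
    have a : ∀ i j, ContDiffAt ℝ 2 (fun t : ℂ => H α (p + t • ζ) i j) 0 := fun i j =>
      (((hH.smooth α i j).of_le (by norm_cast)).comp
        (f := fun t : ℂ => p + t • ζ) (by fun_prop)).contDiffAt
    have b : ∀ i, ContDiffAt ℝ 2 (fun t : ℂ => s (p + t • ζ) i) 0 := fun i =>
      (hsa i).contDiffAt.restrict_scalars ℝ
    have c : ∀ i, ContDiffAt ℝ 2 (fun t : ℂ => conj (s (p + t • ζ) i)) 0 := fun i =>
      Complex.conjCLE.contDiff.contDiffAt.comp 0 (b i)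
    have d : ContDiffAt ℝ 2 (fun t : ℂ => bq (H α (p + t • ζ)) (s (p + t • ζ)) (s (p + t • ζ))) 0 :=
      ContDiffAt.sum fun i _ => ContDiffAt.sum fun j _ => ((a i j).mul (b i)).mul (c j)
    exact Complex.reCLM.contDiff.contDiffAt.comp 0 d
  set m := dq (H α p) (l 0) with hm
  have hmpos : 0 < m := div_pos (nq_pos (hH.posDef α p) (J_ne hl0)) (det_re_pos (hH.posDef α p))
  set Φ : ℂ → ℂ := fun t => 2 * conj (κ 0) * κ t with hΦ
  have hΦa : AnalyticAt ℂ Φ 0 := analyticAt_const.mul hκa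
  have hmin : IsLocalMin (fun t : ℂ => m * σ t - (Φ t).re) 0 := by
    filter_upwards [hmax] with t ht
    simp only [zero_smul, add_zero] at ht
    have h1 : dq (H α (p + t • ζ)) (l t) ≤ m := by
      rw [← dn_sq (hH.posDef _ _), hm, ← dn_sq (hH.posDef _ _)]
      exact pow_le_pow_left₀ (dn_nonneg _ _) ht 2
    have h2 : ‖κ t‖ ^ 2 ≤ m * σ t := (dq_ineq (hH.posDef _ _) _ _).trans
      (mul_le_mul_of_nonneg_right h1 (nq_nonneg (hH.posDef _ _) _))
    have h3 : ‖κ 0‖ ^ 2 = m * σ 0 := by simpa [hκ, hσ] using ev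
    rw [← h3]
    simp only [hΦ, Complex.sq_norm, Complex.normSq_apply, Complex.mul_re, Complex.mul_im,
      Complex.conj_re, Complex.conj_im, Complex.re_ofNat, Complex.im_ofNat] at h2 ⊢
    nlinarith [sq_nonneg ((κ t).re - (κ 0).re), sq_nonneg ((κ t).im - (κ 0).im)]
  have line : ∀ c : ℂ, (c ^ 2 * deriv (deriv Φ) 0).re ≤
      m * deriv (deriv fun t : ℝ => σ ((t : ℂ) * c)) 0 := by
    intro c
    have k0 : ContDiff ℝ 2 (fun t : ℝ => (t : ℂ) * c) :=
      Complex.ofRealCLM.contDiff.mul contDiff_const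
    have k1 : ContDiffAt ℝ 2 (fun t : ℝ => σ ((t : ℂ) * c)) 0 :=
      ContDiffAt.comp (g := σ) 0 (by simpa using hσc) k0.contDiffAt
    have k2' : ContDiffAt ℝ 2 (fun t : ℝ => Φ ((t : ℂ) * c)) 0 :=
      ContDiffAt.comp (g := Φ) 0 (by simpa using hΦa.contDiffAt.restrict_scalars ℝ) k0.contDiffAt
    have k2 : ContDiffAt ℝ 2 (fun t : ℝ => (Φ ((t : ℂ) * c)).re) 0 :=
      Complex.reCLM.contDiff.contDiffAt.comp 0 k2'
    have k3 : IsLocalMin (fun t : ℝ => m * σ ((t : ℂ) * c) - (Φ ((t : ℂ) * c)).re) 0 :=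
      IsLocalMin.comp_continuous (f := fun t : ℂ => m * σ t - (Φ t).re)
        (g := fun t : ℝ => (t : ℂ) * c) (by simpa using hmin) k0.continuous.continuousAt
    have k4 := sd_nonneg k3 ((contDiffAt_const.mul k1).sub k2).continuousAt
    have two : ∀ F : ℝ → ℝ, deriv (deriv F) = iteratedDeriv 2 F := fun F => by
      simp [iteratedDeriv_succ]
    rw [← sd_re hΦa c]
    rw [two] at k4
    rw [two, two]
    rw [iteratedDeriv_fun_sub (contDiffAt_const.mul k1) k2, iteratedDeriv_const_mul_field] at k4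
    linarith
  have l1 := line 1
  have l2 := line Complex.I
  have e1 : secondDerivAlong (fun q => hNormSq H α q (s q)) p ζ =
      deriv (deriv fun t : ℝ => σ ((t : ℂ) * 1)) 0 := by
    simp only [mul_one]; rfl
  have e2 : secondDerivAlong (fun q => hNormSq H α q (s q)) p (Complex.I • ζ) =
      deriv (deriv fun t : ℝ => σ ((t : ℂ) * Complex.I)) 0 := by
    simp only [secondDerivAlong, smul_smul]; rfl
  rw [leviAlong, e1, e2] at hlevi
  simp only [one_pow, one_mul, Complex.I_sq, neg_mul, Complex.neg_re] at l1 l2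
  nlinarith

end Crest.Agent.R258
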