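import Crest.Agent.R258.Limit

/-! Row 258: the hyperbolic element gives the contradiction. -/

set_option autoImplicit false
set_option linter.unusedSimpArgs false
set_option linter.unusedVariables false

noncomputable section

namespace Crest.Agent.R258
open Filter Topology

theorem cramer {u u' : V} (h : dt u u' ≠ 0) :
    ∃ C, 0 < C ∧ ∀ w : V, ‖w‖ ≤ C * (‖pr u w‖ + ‖pr u' w‖) := by
  have hD := norm_pos_iff.2 h
  refine ⟨(‖u‖ + ‖u'‖ + 1) / ‖dt u u'‖, by positivity, fun w => ?_⟩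
  refine (pi_norm_le_iff_of_nonneg (by positivity)).2 fun i => ?_
  rw [div_mul_eq_mul_div, le_div_iff₀ hD, ← norm_mul]
  have key : ∀ a b : ℂ, ‖a‖ ≤ ‖u'‖ → ‖b‖ ≤ ‖u‖ → ‖a * pr u w - b * pr u' w‖ ≤
      (‖u‖ + ‖u'‖ + 1) * (‖pr u w‖ + ‖pr u' w‖) := by
    intro a b ha hb
    refine (norm_sub_le _ _).trans ?_
    rw [norm_mul, norm_mul]
    have := norm_nonneg (pr u w)
    have := norm_nonneg (pr u' w)
    have := norm_nonneg u
    have := norm_nonneg u'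
    nlinarith [mul_le_mul_of_nonneg_right ha (norm_nonneg (pr u w)),
      mul_le_mul_of_nonneg_right hb (norm_nonneg (pr u' w))]
  fin_cases i
  · refine le_of_eq_of_le ?_ (key _ _ (norm_le_pi_norm u' 1) (norm_le_pi_norm u 1))
    congr 1
    simp [pr, dt]; ring
  · rw [← norm_neg]
    refine le_of_eq_of_le ?_ (key _ _ (norm_le_pi_norm u' 0) (norm_le_pi_norm u 0))
    congr 1
    simp [pr, dt]; ring

theorem norm_om : ‖om‖ = 1 := by
  have h : om ^ 3 = -1 := by linear_combination (om + 1) * om_sq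
  have h2 : ‖om‖ ^ 3 = 1 := by rw [← norm_pow, h]; simp
  exact (pow_eq_one_iff_of_nonneg (norm_nonneg _) (by norm_num)).1 h2

theorem norm_g2 (w : V) : ‖gv om 1 w‖ = ‖w‖ := by
  have h : ‖om - 1‖ = 1 := by rw [← om_sq, norm_pow, norm_om, one_pow]
  rw [norm_V, norm_V w]
  simp [gv, norm_om, h]

theorem small3 {a b c C : ℝ} (ha : 0 ≤ a) (hb : 0 ≤ b) (hc : 0 ≤ c) (hC : 0 < C)
    (h1 : 1 ≤ C * (a + b)) (h2 : 1 ≤ C * (a + c)) (h3 : 1 ≤ C * (b + c)) :
    a ≤ 4 * C ^ 2 * (a * b * c) ∨ b ≤ 4 * C ^ 2 * (a * b * c) ∨ c ≤ 4 * C ^ 2 * (a * b * c) := by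
  have key : ∀ x y z : ℝ, 0 ≤ x → x ≤ y → x ≤ z → 1 ≤ C * (x + y) → 1 ≤ C * (x + z) →
      x ≤ 4 * C ^ 2 * (x * y * z) := by
    intro x y z hx k1 k2 k3 k4
    have e1 : 1 ≤ 2 * C * y := by nlinarith
    have e2 : 1 ≤ 2 * C * z := by nlinarith
    have e3 : 1 ≤ (2 * C * y) * (2 * C * z) := one_le_mul_of_one_le_of_one_le e1 e2
    nlinarith
  rcases le_total a b with k1 | k1 <;> rcases le_total a c with k2 | k2 <;>
    rcases le_total b c with k3 | k3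
  · exact Or.inl (key a b c ha k1 k2 h1 h2)
  · exact Or.inl (key a b c ha k1 k2 h1 h2)
  · exact Or.inl (key a b c ha k1 (k1.trans k3) h1 h2)
  · exact Or.inr (Or.inr (by
      have := key c a b hc k2 k3 (by linarith) (by linarith); linarith))
  · exact Or.inr (Or.inl (by
      have := key b a c hb k1 k3 (by linarith) h3; linarith))
  · exact Or.inl (key a b c ha (k2.trans k3) k2 h1 h2)
  · exact Or.inr (Or.inl (by
      have := key b a c hb k1 k3 (by linarith) h3; linarith))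
  · exact Or.inr (Or.inr (by
      have := key c a b hc k2 k3 (by linarith) (by linarith); linarith))

/-- left eigenvectors of the hyperbolic element -/
def uu (μ : ℂ) : V := ![3 - 3 * om, μ + 2 * om + 1]

def gam (w : V) : V := gv om 1 (gv om 2 w)

theorem pr_gam {μ : ℂ} (h : μ ^ 2 + 4 * μ + 1 = 0) (w : V) : pr (uu μ) (gam w) = μ * pr (uu μ) w := by
  simp only [pr, uu, gam, gv, Matrix.cons_val_zero, Matrix.cons_val_one, Matrix.cons_val]
  linear_combination (-w 1) * h + ((3 - 3 * om) * w 0 + (μ + 2 * om - 1) * w 1) * om_sq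

theorem pr_gam_iter {μ : ℂ} (h : μ ^ 2 + 4 * μ + 1 = 0) (m : ℕ) (w : V) :
    pr (uu μ) (gam^[m] w) = μ ^ m * pr (uu μ) w := by
  induction m with
  | zero => simp
  | succ m ih => rw [Function.iterate_succ_apply', pr_gam h, ih]; ring

section main
variable {A1 A2 : ℕ → V → V → ℝ} {A3 : ℕ → Fin 2 → V → V → ℝ}
  (hS : ∀ᶠ N in UU, Sys N (A1 N) (A2 N) (A3 N) ∧
    ∀ x y, ‖x‖ = 1 → ‖y‖ = 1 → A1 N x y ≤ 1 ∧ A2 N x y ≤ 1)
include hS

theorem Rel.iter (m : ℕ) {X Y : V} {L : ℝ} (h : Rel A1 X Y L) (hX : X ≠ 0) (hY : Y ≠ 0) :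
    gam^[m] X ≠ 0 ∧ ∃ Y', Y' ≠ 0 ∧ Rel A1 (gam^[m] X) Y' L := by
  induction m with
  | zero => exact ⟨hX, Y, hY, h⟩
  | succ m ih =>
    obtain ⟨h1, Y', h2, h3⟩ := ih
    rw [Function.iterate_succ_apply']
    have k1 := gv_ne 2 h1
    have k2 := gv_ne 1 k1
    exact ⟨k2, _, k2, Rel.step hS 1 (Rel.step hS 2 h3 h1 h2) k1 k1⟩

set_option maxHeartbeats 1000000 in
theorem Rel.false {X Y : V} (h : Rel A1 X Y 1) (hX : ‖X‖ = 1) (hY : Y ≠ 0) : False := by
  have hX0 : X ≠ 0 := by rintro rfl; simp at hX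
  obtain ⟨s, hs0, hs⟩ : ∃ s : ℝ, 0 < s ∧ s ^ 2 = 3 :=
    ⟨Real.sqrt 3, by positivity, Real.sq_sqrt (by norm_num)⟩
  have hs1 : 1 < s := by nlinarith
  have hs2 : s < 2 := by nlinarith
  have hsc : (s : ℂ) ^ 2 = 3 := by exact_mod_cast hs
  obtain ⟨o1, o2, o3⟩ := om_ne
  obtain ⟨μ, hμ⟩ : ∃ μ : ℂ, μ = -2 - s := ⟨_, rfl⟩
  obtain ⟨μ', hμ'⟩ : ∃ μ : ℂ, μ = -2 + s := ⟨_, rfl⟩
  have e1 : μ ^ 2 + 4 * μ + 1 = 0 := by rw [hμ]; linear_combination hsc
  have e2 : μ' ^ 2 + 4 * μ' + 1 = 0 := by rw [hμ']; linear_combination hsc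
  have n1 : ‖μ‖ = 2 + s := by
    have : μ = -((2 + s : ℝ) : ℂ) := by rw [hμ]; push_cast; ring
    rw [this, norm_neg, Complex.norm_real, Real.norm_of_nonneg (by positivity)]
  have n2 : ‖μ'‖ = 2 - s := by
    have : μ' = -((2 - s : ℝ) : ℂ) := by rw [hμ']; push_cast; ring
    rw [this, norm_neg, Complex.norm_real, Real.norm_of_nonneg (by linarith)]
  have u0 : (3 - 3 * om) ≠ 0 := fun e => o2 (by linear_combination (-1 / 3 : ℂ) * e)
  have u1 : μ + 2 * om + 1 ≠ 0 := by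
    intro e
    have : (6 : ℂ) = 0 := by
      rw [hμ] at e
      linear_combination (-(2 * om - 1 + s)) * e + 4 * om_sq - hsc
    norm_num at this
  set u := uu μ with hu
  let v1 : V := ![u 0 * om, u 1 * (om - 1)]
  let v2 : V := ![u 0 * om ^ 2, u 1 * (om - 1) ^ 2]
  have p1 : ∀ w, pr u (gv om 1 w) = pr v1 w := fun w => by simp [pr, gv, v1]; ring
  have p2 : ∀ w, pr u (gv om 1 (gv om 1 w)) = pr v2 w := fun w => by simp [pr, gv, v2]; ring
  have uu0 : u 0 * u 1 ≠ 0 := mul_ne_zero u0 u1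
  obtain ⟨C1, c1, k1⟩ := cramer (u := u) (u' := v1) (by
    have : dt u v1 = -(u 0 * u 1) := by simp [dt, v1]; ring
    rwa [this, neg_ne_zero])
  obtain ⟨C2, c2, k2⟩ := cramer (u := u) (u' := v2) (by
    have : dt u v2 = (u 0 * u 1) * (-(2 * om - 1)) := by simp [dt, v2]; ring
    rw [this]
    refine mul_ne_zero uu0 fun e => ?_
    have : (3 : ℂ) = 0 := by linear_combination (2 * om - 1) * e + 4 * om_sq
    norm_num at this)
  obtain ⟨C3, c3, k3⟩ := cramer (u := v1) (u' := v2) (by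
    have : dt v1 v2 = (u 0 * u 1) * (-(om * (om - 1))) := by simp [dt, v1, v2]; ring
    rw [this]
    exact mul_ne_zero uu0 (neg_ne_zero.2 (mul_ne_zero o1 o2)))
  obtain ⟨C4, c4, k4⟩ := cramer (u := u) (u' := uu μ') (by
    have : dt u (uu μ') = (3 - 3 * om) * (2 * s) := by simp [dt, hu, uu, hμ, hμ']; ring
    rw [this]
    exact mul_ne_zero u0 (mul_ne_zero two_ne_zero (by exact_mod_cast hs0.ne')))
  let Λ : V → ℂ := fun w => pr u w * pr v1 w * pr v2 w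
  have hΛ : Differentiable ℂ Λ := by unfold Λ pr; fun_prop
  obtain ⟨C, c0, hC⟩ := exists_bd hΛ.continuous
  obtain ⟨C5, c5, k5⟩ := exists_bd (Λ := pr (uu μ')) (by unfold pr; fun_prop)
  obtain ⟨C0, hC0⟩ : ∃ C0, C0 = C1 + C2 + C3 := ⟨_, rfl⟩
  have c6 : 0 < C0 := by rw [hC0]; positivity
  have main : ∀ m : ℕ, 1 ≤ (max 1 (C * (4 * C0 ^ 2))) ^ 2 * (C4 * (1 + C5)) ^ 6 *
      ((2 - s) ^ m) ^ 2 := by
    intro m
    obtain ⟨t, ht⟩ : ∃ t, t = (2 - s) ^ m := ⟨_, rfl⟩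
    have t0 : 0 < t := ht ▸ pow_pos (by linarith) m
    have t1 : t ≤ 1 := ht ▸ pow_le_one₀ (by linarith) (by linarith)
    have t2 : (2 + s) ^ m * t = 1 := by
      rw [ht, ← mul_pow, show (2 + s) * (2 - s) = 1 by nlinarith, one_pow]
    rw [← ht]
    obtain ⟨x, y, a, h1, h2, h3, h4⟩ := h
    have hr : 0 < t ^ 2 / (4 * C0 ^ 2) := by positivity
    obtain ⟨x', Z, θ, z1, z2, z3, z4, z5⟩ := ump (k := 6) (φ := fun N x => A1 N x (y N))
      (by filter_upwards [hS, ev_ne_of' hY h2] with N k1 k2 using k1.1.p1x _ k2)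
      hΛ (e := 3) (by norm_num) (fun c z => by simp [Λ, pr]; ring) hC
      (r := fun _ => t ^ 2 / (4 * C0 ^ 2)) (Eventually.of_forall fun _ => hr)
      tendsto_const_nhds (exp_lim 6 (by norm_num) _ (by positivity)) hX0 h1
    obtain ⟨M, hM⟩ : ∃ M, M = max 1 (C / (t ^ 2 / (4 * C0 ^ 2))) := ⟨_, rfl⟩
    rw [← hM] at z4
    have M0 : 0 < M := by rw [hM]; positivity
    have eM : ‖X‖ ^ 6 * M ^ (((6 : ℕ) : ℝ) / (3 : ℕ)) = M ^ 2 := by
      rw [hX, one_pow, one_mul, ← Real.rpow_natCast]; norm_num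
    rw [eM] at z4
    have hZ0 : Z ≠ 0 := by rintro rfl; simp at z1
    have R0 : Rel A1 Z Y (1 / M ^ 2) := by
      refine ⟨x', y, _, z3, h2, h3.div z4 (by positivity), ?_⟩
      filter_upwards [h4, z5, z4.eventually (lt_mem_nhds (by positivity : 0 < M ^ 2))]
        with N a1 a2 a3
      simp only [Pi.div_apply]
      rw [div_le_iff₀ a3]
      linarith [a2.2.2]
    have ex : ∃ W : V, ‖W‖ = 1 ∧ ‖pr u W‖ ≤ t ^ 2 ∧ ∃ Y', Y' ≠ 0 ∧ Rel A1 W Y' (1 / M ^ 2) := by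
      have b1 := k1 Z
      have b2 := k2 Z
      have b3 := k3 Z
      rw [z1] at b1 b2 b3
      have a0 := norm_nonneg (pr u Z)
      have a1 := norm_nonneg (pr v1 Z)
      have a2 := norm_nonneg (pr v2 Z)
      have z2' : 4 * C0 ^ 2 * (‖pr u Z‖ * ‖pr v1 Z‖ * ‖pr v2 Z‖) ≤ t ^ 2 := by
        rw [le_div_iff₀ (by positivity)] at z2
        simp only [Λ, norm_mul] at z2
        linarith
      have g1 := gv_ne 1 hZ0
      have g2 := gv_ne 1 g1
      have R1 := Rel.step hS 1 R0 hZ0 hY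
      have R2 := Rel.step hS 1 R1 g1 g1
      have f1 : 1 ≤ C0 * (‖pr u Z‖ + ‖pr v1 Z‖) :=
        b1.trans (mul_le_mul_of_nonneg_right (by linarith) (by positivity))
      have f2 : 1 ≤ C0 * (‖pr u Z‖ + ‖pr v2 Z‖) :=
        b2.trans (mul_le_mul_of_nonneg_right (by linarith) (by positivity))
      have f3 : 1 ≤ C0 * (‖pr v1 Z‖ + ‖pr v2 Z‖) :=
        b3.trans (mul_le_mul_of_nonneg_right (by linarith) (by positivity))
      rcases small3 a0 a1 a2 c6 f1 f2 f3 with e | e | e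
      · exact ⟨Z, z1, e.trans z2', Y, hY, R0⟩
      · exact ⟨_, by rw [norm_g2, z1], by rw [p1]; exact e.trans z2', _, g1, R1⟩
      · exact ⟨_, by rw [norm_g2, norm_g2, z1], by rw [p2]; exact e.trans z2', _, g2, R2⟩
    obtain ⟨W, w1, w2, Y', hY', R⟩ := ex
    obtain ⟨i1, Y'', i2, i3⟩ := Rel.iter hS m R (by rintro rfl; simp at w1) hY'
    have b1 := Rel.bound hS i3 i1 i2
    have b2 : ‖gam^[m] W‖ ≤ C4 * (1 + C5) * t := by
      refine (k4 _).trans ?_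
      rw [hu, pr_gam_iter e1, pr_gam_iter e2, norm_mul, norm_mul, norm_pow, norm_pow, n1, n2, ← ht,
        mul_assoc]
      refine mul_le_mul_of_nonneg_left ?_ c4.le
      have d1 : (2 + s) ^ m * ‖pr (uu μ) W‖ ≤ (2 + s) ^ m * t ^ 2 :=
        mul_le_mul_of_nonneg_left w2 (by positivity)
      have d2 : t * ‖pr (uu μ') W‖ ≤ t * C5 := mul_le_mul_of_nonneg_left (k5 W w1) t0.le
      have d3 : (2 + s) ^ m * t ^ 2 = t := by linear_combination t * t2
      linarith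
    have b3 : M ≤ max 1 (C * (4 * C0 ^ 2)) / t ^ 2 := by
      rw [hM, max_le_iff, le_div_iff₀ (by positivity), div_div_eq_mul_div]
      refine ⟨le_max_of_le_left (by rw [one_mul]; exact pow_le_one₀ t0.le t1), ?_⟩
      exact div_le_div_of_nonneg_right (le_max_right _ _) (by positivity)
    rw [div_le_iff₀ (by positivity)] at b1
    refine b1.trans ?_
    calc ‖gam^[m] W‖ ^ 6 * M ^ 2
        ≤ (C4 * (1 + C5) * t) ^ 6 * (max 1 (C * (4 * C0 ^ 2)) / t ^ 2) ^ 2 := by gcongr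
      _ = _ := by field_simp
  have lim := ((tendsto_pow_atTop_nhds_zero_of_lt_one (r := 2 - s) (by linarith)
    (by linarith)).pow 2).const_mul ((max 1 (C * (4 * C0 ^ 2))) ^ 2 * (C4 * (1 + C5)) ^ 6)
  have := ge_of_tendsto' lim main
  norm_num at this

theorem final (hA : ∀ᶠ N in UU, ∃ x y, ‖x‖ = 1 ∧ ‖y‖ = 1 ∧ (A1 N x y = 1 ∨ A2 N x y = 1)) :
    False := by
  have hA' : ∀ᶠ N in UU, ∃ q : V × V, ‖q.1‖ = 1 ∧ ‖q.2‖ = 1 ∧
      (A1 N q.1 q.2 = 1 ∨ A2 N q.1 q.2 = 1) :=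
    hA.mono fun N ⟨x, y, h⟩ => ⟨(x, y), h⟩
  obtain ⟨q, hq⟩ := hA'.choice
  obtain ⟨X, x1, x2⟩ := ulim (u := fun N => pw N (q N).1)
    (hq.mono fun N hN => by rw [norm_pw, hN.1, one_pow])
  obtain ⟨Y, y1, y2⟩ := ulim (u := fun N => pw N (q N).2)
    (hq.mono fun N hN => by rw [norm_pw, hN.2.1, one_pow])
  have hX : X ≠ 0 := by rintro rfl; simp at x1
  have hY : Y ≠ 0 := by rintro rfl; simp at y1
  rcases Ultrafilter.eventually_or.1 (hq.mono fun N hN => hN.2.2) with h | h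
  · exact Rel.false hS ⟨_, _, fun _ => 1, x2, y2, tendsto_const_nhds, h.mono fun N hN => hN.ge⟩
      x1 hY
  · exact Rel.false hS (Rel.two_one hS
      ⟨_, _, fun _ => 1, x2, y2, tendsto_const_nhds, h.mono fun N hN => hN.ge⟩ hX hY) y1 hY

end main

end Crest.Agent.R258
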