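import Crest.Agent.R258.Norms

/-! Row 258: passage to the limit `N → ∞` along an ultrafilter. -/

set_option autoImplicit false
set_option linter.unusedSimpArgs false
set_option linter.unusedVariables false

noncomputable section

namespace Crest.Agent.R258
open Filter Topology

abbrev UU : Filter ℕ := (hyperfilter ℕ : Filter ℕ)

theorem ev_ne : ∀ᶠ N in UU, N ≠ 0 :=
  Nat.hyperfilter_le_atTop (eventually_ne_atTop 0)

theorem norm_V (x : V) : ‖x‖ = max ‖x 0‖ ‖x 1‖ := by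
  refine le_antisymm ((pi_norm_le_iff_of_nonneg (by positivity)).2 fun i => ?_)
    (max_le (norm_le_pi_norm x 0) (norm_le_pi_norm x 1))
  fin_cases i
  exacts [le_max_left _ _, le_max_right _ _]

theorem norm_pw (N : ℕ) (x : V) : ‖pw N x‖ = ‖x‖ ^ N := by
  rw [norm_V, norm_V x]
  simp only [pw_apply, norm_pow]
  rcases le_total ‖x 0‖ ‖x 1‖ with h | h
  · rw [max_eq_right h, max_eq_right (pow_le_pow_left₀ (norm_nonneg _) h N)]
  · rw [max_eq_left h, max_eq_left (pow_le_pow_left₀ (norm_nonneg _) h N)]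

theorem root_lim {u : ℕ → ℝ} (h0 : ∀ N, 0 ≤ u N) {c : ℝ} (hc : c ≠ 0)
    (h : Tendsto (fun N => u N ^ N) UU (𝓝 c)) : Tendsto u UU (𝓝 1) := by
  have h1 := h.rpow ((tendsto_inv_atTop_nhds_zero_nat (𝕜 := ℝ)).mono_left
    Nat.hyperfilter_le_atTop) (Or.inl hc)
  rw [Real.rpow_zero] at h1
  refine h1.congr' ?_
  filter_upwards [ev_ne] with N hN using Real.pow_rpow_inv_natCast (h0 N) hN

theorem norm_lim {x : ℕ → V} {X : V} (hX : X ≠ 0) (h : Tendsto (fun N => pw N (x N)) UU (𝓝 X))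
    (k : ℕ) : Tendsto (fun N => ‖x N‖ ^ (k * N + 1)) UU (𝓝 (‖X‖ ^ k)) := by
  have h1 := h.norm
  simp only [norm_pw] at h1
  have h2 := root_lim (fun N => norm_nonneg (x N)) (norm_ne_zero_iff.2 hX) h1
  have h3 := (h1.pow k).mul h2
  rw [mul_one] at h3
  refine h3.congr fun N => by ring

theorem ev_ne_of {x : ℕ → V} {X : V} {b : Fin 2} (hX : X b ≠ 0)
    (h : Tendsto (fun N => pw N (x N)) UU (𝓝 X)) : ∀ᶠ N in UU, x N b ≠ 0 := by
  filter_upwards [ev_ne, (tendsto_pi_nhds.1 h b).eventually_ne hX] with N h1 h2 h3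
  simp [h3, h1] at h2

theorem ev_ne_of' {x : ℕ → V} {X : V} (hX : X ≠ 0)
    (h : Tendsto (fun N => pw N (x N)) UU (𝓝 X)) : ∀ᶠ N in UU, x N ≠ 0 :=
  (ev_ne_of (idx_ne hX) h).mono fun _ => ne_of_apply

theorem ulim {u : ℕ → V} (h : ∀ᶠ N in UU, ‖u N‖ = 1) : ∃ Z, ‖Z‖ = 1 ∧ Tendsto u UU (𝓝 Z) := by
  obtain ⟨Z, h1, h2⟩ := (isCompact_sphere (0 : V) 1).ultrafilter_le_nhds ((hyperfilter ℕ).map u)
    (by
      rw [Ultrafilter.coe_map, le_principal_iff, mem_map]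
      exact h.mono fun N hN => by simpa using hN)
  exact ⟨Z, by simpa using h1, h2⟩

theorem exists_bd {Λ : V → ℂ} (h : Continuous Λ) : ∃ C, 0 < C ∧ ∀ w, ‖w‖ = 1 → ‖Λ w‖ ≤ C := by
  obtain ⟨C, hC⟩ := (isCompact_sphere (0 : V) 1).exists_bound_of_continuousOn h.continuousOn
  exact ⟨max C 1, by positivity, fun w hw => (hC w (by simpa using hw)).trans (le_max_left _ _)⟩

theorem Psh.unit {D : ℕ} {φ : V → ℝ} (h : Psh D φ) {x : V} (hx : x ≠ 0) :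
    φ x = ‖x‖ ^ D * φ (((‖x‖ : ℂ)⁻¹) • x) := by
  have := norm_ne_zero_iff.2 hx
  rw [h.hom _ _ (by simpa using hx) hx]
  simp only [norm_inv, Complex.norm_real, norm_norm, inv_pow]
  field_simp

theorem Psh.mp2 {D N : ℕ} {φ : V → ℝ} (h : Psh D φ) (hN : N ≠ 0) {Λ : V → ℂ}
    (hΛ : Differentiable ℂ Λ) {e : ℕ} (he : e ≠ 0) (hom : ∀ (c : ℂ) z, Λ (c • z) = c ^ e * Λ z)
    {C : ℝ} (hC : ∀ w, ‖w‖ = 1 → ‖Λ w‖ ≤ C) {r : ℝ} (hr : 0 < r) {x : V} (hx : x ≠ 0) :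
    ∃ x' : V, ‖x'‖ = 1 ∧ ‖Λ (pw N x')‖ ≤ r ∧
      φ x ≤ ‖x‖ ^ D * (max 1 (C / r)) ^ ((D : ℝ) / (N * e : ℕ)) * φ x' := by
  obtain ⟨x', h1, h2, h3⟩ := h.mp (Λ := fun z => Λ (pw N z)) (hΛ.comp (differentiable_pw N))
    (mul_ne_zero hN he) (fun c z => by rw [pw_smul, hom, pow_mul]) hr (norm_unit hx)
  refine ⟨x', h1, h2, ?_⟩
  rw [h.unit hx, mul_assoc, mul_comm _ (φ x')]
  refine mul_le_mul_of_nonneg_left (h3.trans (mul_le_mul_of_nonneg_left ?_ (h.nonneg _)))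
    (by positivity)
  refine Real.rpow_le_rpow (by positivity) (max_le_max le_rfl ?_) (by positivity)
  exact div_le_div_of_nonneg_right (hC _ (by rw [norm_pw, norm_unit hx, one_pow])) hr.le

theorem ump {k : ℕ} {φ : ℕ → V → ℝ} (h : ∀ᶠ N in UU, Psh (k * N + 1) (φ N)) {Λ : V → ℂ}
    (hΛ : Differentiable ℂ Λ) {e : ℕ} (he : e ≠ 0) (hom : ∀ (c : ℂ) z, Λ (c • z) = c ^ e * Λ z)
    {C : ℝ} (hC : ∀ w, ‖w‖ = 1 → ‖Λ w‖ ≤ C) {r : ℕ → ℝ} (hr : ∀ᶠ N in UU, 0 < r N) {r₀ μ : ℝ}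
    (hr0 : Tendsto r UU (𝓝 r₀))
    (hμ : Tendsto (fun N => (max 1 (C / r N)) ^ (((k * N + 1 : ℕ) : ℝ) / (N * e : ℕ))) UU (𝓝 μ))
    {x : ℕ → V} {X : V} (hX : X ≠ 0) (hx : Tendsto (fun N => pw N (x N)) UU (𝓝 X)) :
    ∃ (x' : ℕ → V) (Z : V) (θ : ℕ → ℝ), ‖Z‖ = 1 ∧ ‖Λ Z‖ ≤ r₀ ∧
      Tendsto (fun N => pw N (x' N)) UU (𝓝 Z) ∧ Tendsto θ UU (𝓝 (‖X‖ ^ k * μ)) ∧
      ∀ᶠ N in UU, ‖x' N‖ = 1 ∧ 0 ≤ θ N ∧ φ N (x N) ≤ θ N * φ N (x' N) := by
  have : ∀ᶠ N in UU, ∃ x' : V, ‖x'‖ = 1 ∧ ‖Λ (pw N x')‖ ≤ r N ∧ φ N (x N) ≤ ‖x N‖ ^ (k * N + 1) *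
      (max 1 (C / r N)) ^ (((k * N + 1 : ℕ) : ℝ) / (N * e : ℕ)) * φ N x' := by
    filter_upwards [h, hr, ev_ne, ev_ne_of' hX hx] with N h1 h2 h3 h4
    exact h1.mp2 h3 hΛ he hom hC h2 h4
  obtain ⟨x', hx'⟩ := this.choice
  obtain ⟨Z, h1, h2⟩ := ulim (u := fun N => pw N (x' N))
    (hx'.mono fun N hN => by rw [norm_pw, hN.1, one_pow])
  refine ⟨x', Z, _, h1, ?_, h2, (norm_lim hX hx k).mul hμ,
    hx'.mono fun N hN => ⟨hN.1, by positivity, hN.2.2⟩⟩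
  exact le_of_tendsto_of_tendsto ((hΛ.continuous.tendsto Z).comp h2).norm hr0
    (hx'.mono fun N hN => hN.2.1)

theorem exp_lim (k : ℕ) {e : ℕ} (he : e ≠ 0) (m : ℝ) (hm : 0 < m) :
    Tendsto (fun N : ℕ => m ^ (((k * N + 1 : ℕ) : ℝ) / (N * e : ℕ))) UU (𝓝 (m ^ ((k : ℝ) / e))) := by
  refine tendsto_const_nhds.rpow ?_ (Or.inl hm.ne')
  have := (tendsto_add_mul_div_add_mul_atTop_nhds (1 : ℝ) 0 k (d := e)
    (by exact_mod_cast he)).mono_left Nat.hyperfilter_le_atTop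
  refine this.congr fun N => ?_
  push_cast
  ring

theorem BiF.tendsto_ev {k l : ℕ} (P : BiF k l) {x y : ℕ → V} {X Y : V}
    (h1 : Tendsto x UU (𝓝 X)) (h2 : Tendsto y UU (𝓝 Y)) :
    Tendsto (fun N => P.ev om (x N) (y N)) UU (𝓝 (P.ev om X Y)) := by
  have h : Continuous (fun q : V × V => P.ev om q.1 q.2) :=
    P.continuous_ev om _ _ continuous_fst continuous_snd
  have h3 := (h.tendsto (X, Y)).comp (h1.prodMk_nhds h2)
  simpa only [Function.comp_def] using h3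

def Rel (A : ℕ → V → V → ℝ) (X Y : V) (L : ℝ) : Prop :=
  ∃ (x y : ℕ → V) (a : ℕ → ℝ), Tendsto (fun N => pw N (x N)) UU (𝓝 X) ∧
    Tendsto (fun N => pw N (y N)) UU (𝓝 Y) ∧ Tendsto a UU (𝓝 L) ∧ ∀ᶠ N in UU, a N ≤ A N (x N) (y N)

theorem Rel.swap {A : ℕ → V → V → ℝ} {X Y : V} {L : ℝ} (h : Rel A X Y L) :
    Rel (fun N y x => A N x y) Y X L := by
  obtain ⟨x, y, a, h1, h2, h3, h4⟩ := h
  exact ⟨y, x, a, h2, h1, h3, h4⟩

theorem dt_diff (Z : V) : Differentiable ℂ (dt Z) := by unfold dt; fun_prop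

theorem dt_smul (Z : V) (c : ℂ) (w : V) : dt Z (c • w) = c ^ 1 * dt Z w := by
  simp [dt]; ring

theorem dt_zero {Y Z : V} (hY : Y ≠ 0) (h : dt Y Z = 0) : ∃ κ : ℂ, Z = κ • Y := by
  have h1 := idx_ne hY
  refine ⟨Z (idx Y) / Y (idx Y), ?_⟩
  generalize idx Y = a at h1
  unfold dt at h
  funext i
  fin_cases a <;> fin_cases i <;> simp at h1 ⊢ <;> field_simp
  · linear_combination h
  · linear_combination -h

theorem Rel.shift {A : ℕ → V → V → ℝ} (hA : ∀ᶠ N in UU, ∀ x, x ≠ 0 → Psh 1 (A N x)) {X Y Y' : V}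
    {L : ℝ} (h : Rel A X Y L) (hX : X ≠ 0) (hY : Y ≠ 0) (hY' : Y' ≠ 0) : Rel A X Y' L := by
  obtain ⟨x, y, a, h1, h2, h3, h4⟩ := h
  obtain ⟨C, hC0, hC⟩ := exists_bd (dt_diff Y').continuous
  have hP : ∀ᶠ N in UU, Psh 1 (A N (x N)) := by
    filter_upwards [hA, ev_ne_of' hX h1] with N k1 k2 using k1 _ k2
  obtain ⟨y', Z, θ, z1, z2, z3, z4, z5⟩ := ump (k := 0) (φ := fun N => A N (x N)) (μ := 1)
    (by simpa using hP) (dt_diff Y') one_ne_zero (dt_smul Y') hC (r := fun N => C / N)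
    (ev_ne.mono fun N hN => by positivity)
    ((tendsto_const_div_atTop_nhds_zero_nat C).mono_left Nat.hyperfilter_le_atTop)
    (by
      refine ((tendsto_rpow_div.comp tendsto_natCast_atTop_atTop).mono_left
        Nat.hyperfilter_le_atTop).congr' ?_
      filter_upwards [ev_ne] with N hN
      have : (1 : ℝ) ≤ N := by exact_mod_cast Nat.pos_of_ne_zero hN
      have e : C / (C / N) = N := by field_simp
      simp [e, this]) hY h2
  obtain ⟨κ, rfl⟩ := dt_zero hY' (norm_le_zero_iff.1 z2)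
  have hκ : κ ≠ 0 := by rintro rfl; simp at z1
  have : ∀ᶠ N in UU, ∃ c : ℂ, c ^ N = κ⁻¹ := ev_ne.mono fun N hN =>
    IsAlgClosed.exists_pow_nat_eq _ (Nat.pos_of_ne_zero hN)
  obtain ⟨c, hc⟩ := this.choice
  have c1 : Tendsto (fun N => ‖c N‖) UU (𝓝 1) :=
    root_lim (fun N => norm_nonneg _) (c := ‖κ⁻¹‖) (by simpa using hκ)
      (tendsto_const_nhds.congr' (hc.mono fun N hN => by rw [← hN, norm_pow]))
  simp only [pow_zero, one_mul] at z4
  refine ⟨x, fun N => c N • y' N, fun N => ‖c N‖ * a N / θ N, h1, ?_, ?_, ?_⟩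
  · have := z3.const_smul κ⁻¹
    rw [smul_smul, inv_mul_cancel₀ hκ, one_smul] at this
    exact this.congr' (hc.mono fun N hN => by simp only [pw_smul, hN])
  · have := (c1.mul h3).div z4 one_ne_zero
    rw [one_mul, div_one] at this
    exact this
  · filter_upwards [h4, z5, hP, z4.eventually (lt_mem_nhds one_pos),
      c1.eventually (lt_mem_nhds one_pos)] with N k1 k2 k3 k4 k5
    rw [k3.hom _ _ (norm_pos_iff.1 k5) (by rintro h; simp [h] at k2), pow_one, div_le_iff₀ k4,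
      mul_assoc]
    exact mul_le_mul_of_nonneg_left (by linarith [k2.2.2]) k5.le

theorem om_ne : om ≠ 0 ∧ om - 1 ≠ 0 ∧ om + 1 ≠ 0 := by
  have h := om_sq
  refine ⟨fun e => ?_, fun e => ?_, fun e => ?_⟩
  · rw [e] at h; norm_num at h
  · have : om = 1 := by linear_combination e
    rw [this] at h; norm_num at h
  · have : om = -1 := by linear_combination e
    rw [this] at h; norm_num at h

theorem gv_ne (i : Fin 3) {X : V} (hX : X ≠ 0) : gv om i X ≠ 0 := by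
  intro h
  have h0 := congrFun h 0
  have h1 := congrFun h 1
  obtain ⟨o1, o2, o3⟩ := om_ne
  apply hX
  have : X 0 = 0 ∧ X 1 = 0 := by
    fin_cases i
    · simpa [gv] using And.intro h0 h1
    · simpa [gv, o1, o2] using And.intro h0 h1
    · simp only [gv] at h0 h1
      simp at h0 h1
      exact ⟨by linear_combination (-(om + 2)) * h0 + 2 * h1 + X 0 * om_sq,
        by linear_combination (-3) * h0 - (om - 3) * h1 + X 1 * om_sq⟩
  funext j; fin_cases j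
  exacts [this.1, this.2]

theorem exists_f_ne {Y : V} (hY : Y ≠ 0) : ∃ Z : V, fT.ev om Z Y ≠ 0 := by
  have fin : ∀ i : Fin 3, {z : ℂ | dt (gv om i ![1, z]) Y = 0}.Finite := by
    intro i
    refine Set.Subsingleton.finite fun z hz z' hz' => ?_
    by_contra hne
    have lin : ∀ Z : V, (z - z') * dt (gv om i Z) Y = (Z 1 - z' * Z 0) * dt (gv om i ![1, z]) Y -
        (Z 1 - z * Z 0) * dt (gv om i ![1, z']) Y := by
      intro Z
      fin_cases i <;> simp [gv, dt] <;> ring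
    have all : ∀ Z : V, dt (gv om i Z) Y = 0 := fun Z => by
      have := lin Z
      rw [hz, hz'] at this
      simpa [sub_eq_zero, hne] using this
    have a := all ![1, 0]
    have b := all ![0, 1]
    obtain ⟨o1, o2, o3⟩ := om_ne
    apply hY
    have : Y 0 = 0 ∧ Y 1 = 0 := by
      fin_cases i
      · simpa [gv, dt] using And.intro b a
      · simpa [gv, dt, o1, o2] using And.intro b a
      · simp [gv, dt] at a b
        exact ⟨by linear_combination (-2) * a + (om - 3) * b + Y 0 * om_sq,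
          by linear_combination (-(om + 2)) * a - 3 * b + Y 1 * om_sq⟩
    funext j; fin_cases j
    exacts [this.1, this.2]
  obtain ⟨z, hz⟩ := (((fin 0).union (fin 1)).union (fin 2)).exists_notMem
  simp only [Set.mem_union, Set.mem_ofPred_eq, not_or] at hz
  exact ⟨![1, z], by rw [id_f om_sq]; exact mul_ne_zero (mul_ne_zero hz.1.1 hz.1.2) hz.2⟩

theorem exists_r {Y : V} (hY : Y ≠ 0) : ∃ (Z₀ : V) (r : ℝ), 0 < r ∧
    ∀ Z : V, ‖Z‖ = 1 → ‖dt Z₀ Z‖ ≤ r → fT.ev om Z Y ≠ 0 := by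
  obtain ⟨Z₀, h0⟩ := exists_f_ne hY
  have hZ : Z₀ ≠ 0 := by
    rintro rfl
    have := fT.ev_smul_left om 0 0 Y
    simp [h0] at this
  have hK : IsCompact (Metric.sphere (0 : V) 1 ∩ {Z | fT.ev om Z Y = 0}) :=
    (isCompact_sphere _ _).inter_right (isClosed_eq (by fun_prop) continuous_const)
  obtain ⟨r, hr, h⟩ := hK.exists_forall_le' (f := fun Z => ‖dt Z₀ Z‖)
    (dt_diff Z₀).continuous.norm.continuousOn (a := 0) (by
      rintro Z ⟨h1, h2⟩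
      refine norm_pos_iff.2 fun h3 => ?_
      obtain ⟨κ, rfl⟩ := dt_zero hZ h3
      have hκ : κ ≠ 0 := by rintro rfl; simp at h1
      simp [BiF.ev_smul_left, hκ, h0] at h2)
  refine ⟨Z₀, r / 2, by positivity, fun Z h1 h2 h3 => ?_⟩
  have := h Z ⟨by simpa using h1, h3⟩
  linarith

section main
variable {A1 A2 : ℕ → V → V → ℝ} {A3 : ℕ → Fin 2 → V → V → ℝ}
  (hS : ∀ᶠ N in UU, Sys N (A1 N) (A2 N) (A3 N) ∧
    ∀ x y, ‖x‖ = 1 → ‖y‖ = 1 → A1 N x y ≤ 1 ∧ A2 N x y ≤ 1)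

theorem bd_gen {A : V → V → ℝ} {D D' : ℕ} (h1 : ∀ y, y ≠ 0 → Psh D (fun x => A x y))
    (h2 : ∀ x, x ≠ 0 → Psh D' (A x)) (h : ∀ x y, ‖x‖ = 1 → ‖y‖ = 1 → A x y ≤ 1) {x y : V}
    (hx : x ≠ 0) (hy : y ≠ 0) : A x y ≤ ‖x‖ ^ D * ‖y‖ ^ D' := by
  have e1 : A x y = _ := (h1 y hy).unit hx
  have u1 := norm_unit hx
  rw [e1, (h2 _ (by rintro h; simp [h] at u1)).unit hy]
  refine mul_le_mul_of_nonneg_left ?_ (by positivity)
  simpa using mul_le_mul_of_nonneg_left (h _ _ u1 (norm_unit hy)) (by positivity : 0 ≤ ‖y‖ ^ D')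

include hS

theorem Rel.bound {X Y : V} {L : ℝ} (h : Rel A1 X Y L) (hX : X ≠ 0) (hY : Y ≠ 0) : L ≤ ‖X‖ ^ 6 := by
  obtain ⟨x, y, a, h1, h2, h3, h4⟩ := h
  have := (norm_lim hX h1 6).mul (norm_lim hY h2 0)
  rw [pow_zero, mul_one] at this
  refine le_of_tendsto_of_tendsto h3 this ?_
  filter_upwards [h4, hS, ev_ne_of' hX h1, ev_ne_of' hY h2] with N k1 k2 k3 k4
  simpa using k1.trans (bd_gen k2.1.p1x k2.1.p1y (fun x y a b => (k2.2 x y a b).1) k3 k4)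

theorem A3_bd {x y : ℕ → V} {X Y : V} {b : Fin 2} (hX : X ≠ 0) (hY : Y b ≠ 0)
    (h1 : Tendsto (fun N => pw N (x N)) UU (𝓝 X)) (h2 : Tendsto (fun N => pw N (y N)) UU (𝓝 Y)) :
    ∃ (v : ℕ → ℝ) (K : ℝ), Tendsto v UU (𝓝 K) ∧ ∀ᶠ N in UU, A3 N b (x N) (y N) ≤ v N := by
  have hY0 := ne_of_apply hY
  obtain ⟨Z₀, r, hr, hZ⟩ := exists_r hY0
  obtain ⟨C, hC0, hC⟩ := exists_bd (dt_diff Z₀).continuous
  obtain ⟨x', Z, θ, z1, z2, z3, z4, z5⟩ := ump (k := 3) (φ := fun N x => A3 N b x (y N))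
    (by filter_upwards [hS, ev_ne_of hY h2] with N k1 k2 using k1.1.p3 b _ k2)
    (dt_diff Z₀) one_ne_zero (dt_smul Z₀) hC (r := fun _ => r) (Eventually.of_forall fun _ => hr)
    tendsto_const_nhds (exp_lim 3 one_ne_zero _ (by positivity)) hX h1
  have hf := hZ Z z1 z2
  have tf := fT.tendsto_ev z3 h2
  have tp := (pT b).tendsto_ev z3 h2
  have ty := (tendsto_pi_nhds.1 h2 b).pow 8
  have hne : ‖fT.ev om Z Y * Y b ^ 8‖ ≠ 0 := by simp [hf, hY]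
  refine ⟨_, _, z4.mul (((ty.norm.mul (norm_lim hY0 h2 0)).add
    (tp.norm.mul (norm_lim hY0 h2 6))).div (tf.mul ty).norm hne), ?_⟩
  filter_upwards [hS, ev_ne_of hY h2, z5, (tf.mul ty).norm.eventually_ne hne] with N k1 k2 k3 k4
  have x0 : x' N ≠ 0 := by rintro h; simp [h] at k3
  refine k3.2.2.trans (mul_le_mul_of_nonneg_left ?_ k3.2.1)
  simp only [Pi.div_apply]
  rw [le_div_iff₀ (lt_of_le_of_ne (norm_nonneg _) k4.symm), mul_comm]
  refine (k1.1.t3 b _ _ x0 k2).trans (add_le_add ?_ ?_)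
  · refine mul_le_mul_of_nonneg_left ?_ (norm_nonneg _)
    simpa [k3.1] using bd_gen k1.1.p1x k1.1.p1y (fun x y a b => (k1.2 x y a b).1) x0
      (ne_of_apply k2)
  · refine mul_le_mul_of_nonneg_left ?_ (norm_nonneg _)
    simpa [k3.1] using bd_gen k1.1.p2x k1.1.p2y (fun x y a b => (k1.2 x y a b).2) x0
      (ne_of_apply k2)

theorem core (i : Fin 3) {X : V} (hX : X ≠ 0) (L : ℝ) :
    Rel A1 X (gv om i X) L ↔ Rel A2 X (gv om i X) L := by
  have hY := idx_ne (gv_ne i hX)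
  have ep := id_p om_sq X (idx (gv om i X)) i
  have ef : fT.ev om X (gv om i X) = 0 := by
    rw [id_f om_sq]
    have : ∀ u : V, dt u u = 0 := fun u => by simp [dt, mul_comm]
    fin_cases i <;> simp [this]
  generalize idx (gv om i X) = b at hY ep
  generalize gv om i X = Y at hY ep ef
  have hne : ‖Y b ^ 8‖ ≠ 0 := by simp [hY]
  have lim : ∀ {x y : ℕ → V}, Tendsto (fun N => pw N (x N)) UU (𝓝 X) →
      Tendsto (fun N => pw N (y N)) UU (𝓝 Y) →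
      Tendsto (fun N => ‖fN N (x N) (y N) * pw N (y N) b ^ 8‖) UU (𝓝 0) ∧
      Tendsto (fun N => ‖pN N b (x N) (y N)‖) UU (𝓝 ‖Y b ^ 8‖) ∧
      Tendsto (fun N => ‖pw N (y N) b ^ 8‖) UU (𝓝 ‖Y b ^ 8‖) := by
    intro x y h1 h2
    have tf := fT.tendsto_ev h1 h2
    have tp := (pT b).tendsto_ev h1 h2
    have ty := (tendsto_pi_nhds.1 h2 b).pow 8
    refine ⟨?_, ep ▸ tp.norm, ty.norm⟩
    have := (tf.mul ty).norm
    rwa [ef, zero_mul, norm_zero] at this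
  constructor
  · rintro ⟨x, y, a, h1, h2, h3, h4⟩
    obtain ⟨v, K, hv, hK⟩ := A3_bd hS hX hY h1 h2
    obtain ⟨l1, l2, l3⟩ := lim h1 h2
    have := ((l3.mul h3).sub (l1.mul hv)).div l2 hne
    rw [zero_mul, sub_zero, mul_div_cancel_left₀ _ hne] at this
    refine ⟨x, y, _, h1, h2, this, ?_⟩
    filter_upwards [hS, h4, hK, ev_ne_of' hX h1, ev_ne_of hY h2, l2.eventually_ne hne]
      with N k1 k2 k3 k4 k5 k6
    simp only [Pi.div_apply]
    rw [div_le_iff₀ (lt_of_le_of_ne (norm_nonneg _) k6.symm)]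
    linarith [k1.1.t1 b _ _ k4 k5, mul_le_mul_of_nonneg_left k2 (norm_nonneg (pw N (y N) b ^ 8)),
      mul_le_mul_of_nonneg_left k3 (norm_nonneg (fN N (x N) (y N) * pw N (y N) b ^ 8))]
  · rintro ⟨x, y, a, h1, h2, h3, h4⟩
    obtain ⟨v, K, hv, hK⟩ := A3_bd hS hX hY h1 h2
    obtain ⟨l1, l2, l3⟩ := lim h1 h2
    have := ((l2.mul h3).sub (l1.mul hv)).div l3 hne
    rw [zero_mul, sub_zero, mul_div_cancel_left₀ _ hne] at this
    refine ⟨x, y, _, h1, h2, this, ?_⟩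
    filter_upwards [hS, h4, hK, ev_ne_of' hX h1, ev_ne_of hY h2, l3.eventually_ne hne]
      with N k1 k2 k3 k4 k5 k6
    simp only [Pi.div_apply]
    rw [div_le_iff₀ (lt_of_le_of_ne (norm_nonneg _) k6.symm)]
    linarith [k1.1.t2 b _ _ k4 k5, mul_le_mul_of_nonneg_left k2 (norm_nonneg (pN N b (x N) (y N))),
      mul_le_mul_of_nonneg_left k3 (norm_nonneg (fN N (x N) (y N) * pw N (y N) b ^ 8))]

theorem Rel.two_one {X Y : V} {L : ℝ} (h : Rel A2 X Y L) (hX : X ≠ 0) (hY : Y ≠ 0) :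
    Rel A1 Y Y L := by
  have e : gv om 0 Y = Y := by funext i; fin_cases i <;> simp [gv]
  have h1 : Rel A2 Y Y L := (Rel.shift (A := fun N y x => A2 N x y)
    (hS.mono fun N k => k.1.p2x) h.swap hY hX hY).swap
  have := (core hS 0 hY L).2
  rw [e] at this
  exact this h1

theorem Rel.step (i : Fin 3) {X Y : V} {L : ℝ} (h : Rel A1 X Y L) (hX : X ≠ 0) (hY : Y ≠ 0) :
    Rel A1 (gv om i X) (gv om i X) L :=
  Rel.two_one hS ((core hS i hX L).1 (h.shift (hS.mono fun N k => k.1.p1y) hX hY (gv_ne i hX)))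
    hX (gv_ne i hX)

end main

end Crest.Agent.R258
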