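import Crest.Agent.R258.Data

/-! Row 258: a weighted maximum principle for homogeneous functions on `ℂ²`. -/

set_option autoImplicit false
set_option linter.unusedSimpArgs false
set_option linter.unusedVariables false

noncomputable section

namespace Crest.Agent.R258
open Filter Topology

structure Psh (D : ℕ) (φ : V → ℝ) : Prop where
  cont : ∀ z, z ≠ 0 → ContinuousAt φ z
  nonneg : ∀ z, 0 ≤ φ z
  hom : ∀ (c : ℂ) (z : V), c ≠ 0 → z ≠ 0 → φ (c • z) = ‖c‖ ^ D * φ z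
  nm : ∀ z, z ≠ 0 → ∃ ξ : V, ∀ κ : ℂ → ℂ, AnalyticAt ℂ κ 0 → κ 0 ≠ 0 →
    ¬ IsLocalMax (fun t : ℂ => ‖κ t‖ * φ (z + t • ξ)) 0

theorem norm_unit {w : V} (hw : w ≠ 0) : ‖((‖w‖ : ℂ)⁻¹) • w‖ = 1 := by
  have := norm_ne_zero_iff.2 hw
  simp [norm_smul, this]

theorem Psh.mp {D : ℕ} {φ : V → ℝ} (h : Psh D φ) {Λ : V → ℂ} (hΛ : Differentiable ℂ Λ) {e : ℕ}
    (he : e ≠ 0) (hom : ∀ (c : ℂ) z, Λ (c • z) = c ^ e * Λ z) {r : ℝ} (hr : 0 < r) {z : V}
    (hz : ‖z‖ = 1) : ∃ z' : V, ‖z'‖ = 1 ∧ ‖Λ z'‖ ≤ r ∧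
      φ z ≤ φ z' * (max 1 (‖Λ z‖ / r)) ^ ((D : ℝ) / e) := by
  set ρ : V → ℝ := fun w => (max (‖w‖ ^ e) (‖Λ w‖ / r)) ^ ((D : ℝ) / e) with hρ
  have hΛc := hΛ.continuous
  have hm : ∀ w : V, w ≠ 0 → 0 < max (‖w‖ ^ e) (‖Λ w‖ / r) := fun w hw =>
    lt_max_of_lt_left (pow_pos (norm_pos_iff.2 hw) _)
  have ρpos : ∀ w : V, w ≠ 0 → 0 < ρ w := fun w hw => Real.rpow_pos_of_pos (hm w hw) _
  have ρc : Continuous ρ := Continuous.rpow_const (by fun_prop) fun _ => Or.inr (by positivity)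
  have ρhom : ∀ (c : ℂ) w, ρ (c • w) = ‖c‖ ^ D * ρ w := by
    intro c w
    simp only [hρ, hom, norm_smul, norm_mul, norm_pow, mul_pow, mul_div_assoc]
    rw [← mul_max_of_nonneg _ _ (by positivity), Real.mul_rpow (by positivity)
      (le_max_of_le_left (by positivity)), ← Real.rpow_natCast, ← Real.rpow_mul (norm_nonneg _),
      mul_div_cancel₀ _ (by exact_mod_cast he), Real.rpow_natCast]
  have ne0 : ∀ w : V, ‖w‖ = 1 → w ≠ 0 := by
    rintro w hw rfl; simp at hw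
  obtain ⟨z', hz', hmax⟩ := (isCompact_sphere (0 : V) 1).exists_isMaxOn
    (f := fun w => φ w / ρ w) ⟨z, by simpa using hz⟩ (fun w hw => by
      have := ne0 w (by simpa using hw)
      exact ((h.cont w this).div ρc.continuousAt (ρpos w this).ne').continuousWithinAt)
  have hz1 : ‖z'‖ = 1 := by simpa using hz'
  have hall : ∀ w : V, w ≠ 0 → φ w / ρ w ≤ φ z' / ρ z' := by
    intro w hw
    have h1 := hmax (a := ((‖w‖ : ℂ)⁻¹) • w) (by simpa using norm_unit hw)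
    have h2 : ((‖w‖ : ℂ)⁻¹) ≠ 0 := by simpa using hw
    simp only [Set.mem_ofPred_eq] at h1
    rwa [h.hom _ _ h2 hw, ρhom, mul_div_mul_left _ _ (pow_ne_zero _ (norm_ne_zero_iff.2 h2))] at h1
  have hle : ‖Λ z'‖ ≤ r := by
    by_contra hlt
    push Not at hlt
    have hΛ0 : Λ z' ≠ 0 := norm_pos_iff.1 (hr.trans hlt)
    obtain ⟨ξ, hξ⟩ := h.nm z' (ne0 _ hz1)
    have hl : Differentiable ℂ (fun t : ℂ => Λ (z' + t • ξ) / Λ z') := by fun_prop
    refine hξ (fun t => (Λ (z' + t • ξ) / Λ z') ^ (((-((D : ℝ) / e) : ℝ) : ℂ)))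
      ((hl.analyticAt 0).cpow analyticAt_const (by simp [hΛ0])) (by simp [hΛ0]) ?_
    have c1 : ContinuousAt (fun t : ℂ => z' + t • ξ) 0 := by fun_prop
    have ev1 : ∀ᶠ t : ℂ in 𝓝 0, z' + t • ξ ≠ 0 := c1.eventually_ne (by simpa using ne0 _ hz1)
    have ev2 : ∀ᶠ t : ℂ in 𝓝 0, ‖z' + t • ξ‖ ^ e < ‖Λ (z' + t • ξ)‖ / r := by
      refine ContinuousAt.eventually_lt (by fun_prop) (by fun_prop) ?_
      simpa [hz1, lt_div_iff₀ hr] using hlt
    have key : ∀ w : V, ‖w‖ ^ e < ‖Λ w‖ / r →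
        ‖(Λ w / Λ z') ^ (((-((D : ℝ) / e) : ℝ) : ℂ))‖ * φ w =
          φ w / ρ w * (‖Λ z'‖ / r) ^ ((D : ℝ) / e) := by
      intro w hw
      rw [Complex.norm_cpow_real, hρ]
      simp only [max_eq_right hw.le]
      rw [norm_div, Real.rpow_neg (by positivity), Real.div_rpow (by positivity) (by positivity),
        Real.div_rpow (by positivity) (by positivity),
        Real.div_rpow (by positivity) (by positivity)]
      have : 0 < r ^ ((D : ℝ) / e) := by positivity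
      field_simp
    filter_upwards [ev1, ev2] with t h1 h2
    have h3 := ev2.self_of_nhds
    simp only [zero_smul, add_zero] at h3 ⊢
    rw [key _ h2, key _ h3]
    exact mul_le_mul_of_nonneg_right (hall _ h1) (by positivity)
  refine ⟨z', hz1, hle, ?_⟩
  have h1 := hall z (ne0 _ hz)
  have h2 : ρ z' = 1 := by
    simp only [hρ, hz1, one_pow]
    rw [max_eq_left ((div_le_one hr).2 hle), Real.one_rpow]
  rw [h2, div_one, div_le_iff₀ (ρpos z (ne0 _ hz))] at h1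
  simpa only [hρ, hz, one_pow] using h1

end Crest.Agent.R258
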