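import Crest.Agent.R258.Dual
import Crest.Agent.R258.Psh

/-! Row 258: homogeneous norm functions attached to a Griffiths positive metric on `E_N`. -/

set_option autoImplicit false
set_option linter.unusedSimpArgs false
set_option linter.unusedVariables false

noncomputable section

namespace Crest.Agent.R258
open Filter Topology Matrix Crest.AlgGeometry.QuadricBundle

def pt (α : Chart) (x y : V) : V := ![x (α.1 + 1) / x α.1, y (α.2 + 1) / y α.2]

def cov (N : ℕ) (α : Chart) (x y l : V) : V :=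
  ![x α.1 * y α.2 * (l 0 * (x α.1 ^ N) ^ 3 * ((y α.2 ^ N)⁻¹) ^ 3),
    x α.1 * y α.2 * (l 1 * ((y α.2 ^ N)⁻¹) ^ 2)]

def DD (N : ℕ) (H : MetricData 2) (α : Chart) (x y l : V) : ℝ :=
  dn (H α (pt α x y)) (cov N α x y l)

theorem hc_div {a : Fin 2} {x : V} (h : x a ≠ 0) : hc a (x (a + 1) / x a) = (x a)⁻¹ • x := by
  funext i
  fin_cases a <;> fin_cases i <;> simp_all [hc, div_eq_inv_mul]

theorem tau_pt {α β : Chart} {x y : V} (h1 : x α.1 ≠ 0) (h2 : y α.2 ≠ 0) :
    tau α β (pt α x y) = pt β x y := by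
  obtain ⟨a, b⟩ := α
  obtain ⟨a', b'⟩ := β
  funext i
  fin_cases i
  · fin_cases a <;> fin_cases a' <;> simp [tau, pt]
  · fin_cases b <;> fin_cases b' <;> simp [tau, pt]

theorem sx_pt {α : Chart} (β : Chart) {x : V} (y : V) (h1 : x α.1 ≠ 0) :
    sx α β (pt α x y) = (x α.1)⁻¹ * x β.1 := by
  simp [sx, pt, hc_div h1]

theorem sy_pt {α : Chart} (β : Chart) (x : V) {y : V} (h1 : y α.2 ≠ 0) :
    sy α β (pt α x y) = (y α.2)⁻¹ * y β.2 := by
  simp [sy, pt, hc_div h1]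

theorem ch_pt {k l : ℕ} (P : BiF k l) (N : ℕ) {α : Chart} {x y : V} (h1 : x α.1 ≠ 0)
    (h2 : y α.2 ≠ 0) : ch P N α (pt α x y) =
      ((x α.1 ^ N)⁻¹) ^ k * ((y α.2 ^ N)⁻¹) ^ l * P.ev om (pw N x) (pw N y) := by
  simp only [ch, pt, Matrix.cons_val_zero, Matrix.cons_val_one, hc_div h1, hc_div h2, pw_smul,
    BiF.ev_smul, inv_pow]

theorem cov_add (N : ℕ) (α : Chart) (x y l l' : V) :
    cov N α x y (l + l') = cov N α x y l + cov N α x y l' := by
  funext i; fin_cases i <;> simp [cov] <;> ring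

theorem cov_smul (N : ℕ) (α : Chart) (x y l : V) (c : ℂ) :
    cov N α x y (c • l) = c • cov N α x y l := by
  funext i; fin_cases i <;> simp [cov] <;> ring

theorem cov_ne (N : ℕ) {α : Chart} {x y l : V} (h1 : x α.1 ≠ 0) (h2 : y α.2 ≠ 0) (hl : l ≠ 0) :
    cov N α x y l ≠ 0 := by
  intro h
  have a := congrFun h 0
  have b := congrFun h 1
  apply hl
  funext i
  fin_cases i <;> simp_all [cov]

variable {N : ℕ} {H : MetricData 2}

theorem DD_nonneg (α : Chart) (x y l : V) : 0 ≤ DD N H α x y l := dn_nonneg _ _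

theorem DD_smul (α : Chart) (x y l : V) (c : ℂ) :
    DD N H α x y (c • l) = ‖c‖ * DD N H α x y l := by
  rw [DD, cov_smul, dn_smul, DD]

theorem pt_smul_x (α : Chart) (x y : V) {c : ℂ} (hc : c ≠ 0) : pt α (c • x) y = pt α x y := by
  simp [pt, mul_div_mul_left _ _ hc]

theorem pt_smul_y (α : Chart) (x y : V) {c : ℂ} (hc : c ≠ 0) : pt α x (c • y) = pt α x y := by
  simp [pt, mul_div_mul_left _ _ hc]

def idx (x : V) : Fin 2 := if x 0 = 0 then 1 else 0

theorem idx_ne {x : V} (hx : x ≠ 0) : x (idx x) ≠ 0 := by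
  unfold idx
  split_ifs with h
  · intro h1; apply hx; funext i; fin_cases i <;> simp [h, h1]
  · exact h

section
variable (hH : IsHermitianMetric (gE N) H)
include hH

theorem DD_add (α : Chart) (x y l l' : V) :
    DD N H α x y (l + l') ≤ DD N H α x y l + DD N H α x y l' := by
  rw [DD, cov_add]; exact dn_add (hH.posDef _ _) _ _

theorem DD_le {α β : Chart} {x y l l' : V} (h1 : x α.1 ≠ 0) (h2 : y α.2 ≠ 0) (h3 : x β.1 ≠ 0)
    (h4 : y β.2 ≠ 0) (e0 : l' 0 = l 0) (e1 : (y α.2 ^ N) ^ 8 * l' 1 =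
      (y β.2 ^ N) ^ 8 * l 1 + sg ℂ α.2 β.2 * wT.ev om (pw N x) (pw N y) * l 0) :
    DD N H β x y l' ≤ DD N H α x y l := by
  have hp : pt α x y ∈ overlap α β := by
    rw [mem_overlap, sx_pt β y h1, sy_pt β x h2]
    simp [h1, h2, h3, h4]
  have := dn_change (hH.posDef α (pt α x y)) (hH.posDef β _) (hH.compat α β _ hp) (cov N α x y l)
  rw [tau_pt h1 h2] at this
  refine le_of_eq_of_le ?_ this
  rw [DD]
  congr 1
  have k1 := pow_ne_zero N h1
  have k2 := pow_ne_zero N h2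
  have k3 := pow_ne_zero N h3
  have k4 := pow_ne_zero N h4
  have e1' : l' 1 = ((y β.2 ^ N) ^ 8 * l 1 + sg ℂ α.2 β.2 * wT.ev om (pw N x) (pw N y) * l 0) /
      (y α.2 ^ N) ^ 8 := by
    rw [← e1]; field_simp
  funext i
  fin_cases i <;>
    simp [cov, gE, gF, vecMul, dotProduct, Fin.sum_univ_two, sx_pt β y h1, sy_pt β x h2,
      ch_pt wT N h1 h2, e0, e1', mul_pow, inv_pow] <;>
    generalize x α.1 ^ N = S at * <;> generalize y α.2 ^ N = T at * <;>
    generalize x β.1 ^ N = S' at * <;> generalize y β.2 ^ N = T' at * <;> field_simp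
  ring

theorem DD_eq {α β : Chart} {x y l l' : V} (h1 : x α.1 ≠ 0) (h2 : y α.2 ≠ 0) (h3 : x β.1 ≠ 0)
    (h4 : y β.2 ≠ 0) (e0 : l' 0 = l 0) (e1 : (y α.2 ^ N) ^ 8 * l' 1 =
      (y β.2 ^ N) ^ 8 * l 1 + sg ℂ α.2 β.2 * wT.ev om (pw N x) (pw N y) * l 0) :
    DD N H β x y l' = DD N H α x y l :=
  le_antisymm (DD_le hH h1 h2 h3 h4 e0 e1) (DD_le hH h3 h4 h1 h2 e0.symm (by
    rw [e0]; simp only [sg] at e1 ⊢; linear_combination -e1))

theorem DD_cont {Z : Type*} [TopologicalSpace Z] {α : Chart} {x y l : Z → V} {z : Z}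
    (hx : ContinuousAt x z) (hy : ContinuousAt y z) (hl : ContinuousAt l z)
    (h1 : x z α.1 ≠ 0) (h2 : y z α.2 ≠ 0) :
    ContinuousAt (fun z => DD N H α (x z) (y z) (l z)) z := by
  have a := continuousAt_pi.1 hx
  have b := continuousAt_pi.1 hy
  have c := continuousAt_pi.1 hl
  have hp : ContinuousAt (fun z => pt α (x z) (y z)) z := by
    refine continuousAt_pi.2 fun i => ?_
    fin_cases i
    exacts [(a _).div (a _) h1, (b _).div (b _) h2]
  refine continuousAt_dn (fun i j => (hH.smooth α i j).continuous.continuousAt.comp hp) ?_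
    (hH.posDef _ _)
  refine continuousAt_pi.2 fun i => ?_
  have d := ((b α.2).pow N).inv₀ (pow_ne_zero N h2)
  fin_cases i
  exacts [((a _).mul (b _)).mul (((c 0).mul (((a _).pow N).pow 3)).mul (d.pow 3)),
    ((a _).mul (b _)).mul ((c 1).mul (d.pow 2))]

theorem DD_pos {α : Chart} {x y l : V} (h1 : x α.1 ≠ 0) (h2 : y α.2 ≠ 0) (hl : l ≠ 0) :
    0 < DD N H α x y l := dn_pos (hH.posDef _ _) (cov_ne N h1 h2 hl)

variable (hG : IsGriffithsPositive H)
include hG

theorem psh_x {φ : V → ℝ} {y : V} {b : Fin 2} (hy : y b ≠ 0) {l : V → V} (hl : Differentiable ℂ l)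
    (hl0 : ∀ x, x ≠ 0 → l x ≠ 0) {E : ℕ}
    (e0 : ∀ (c : ℂ) x, (c ^ N) ^ 3 * l (c • x) 0 = c ^ E * l x 0)
    (e1 : ∀ (c : ℂ) x, l (c • x) 1 = c ^ E * l x 1) (h0 : ∀ x, 0 ≤ φ x)
    (hφ : ∀ x a, x a ≠ 0 → φ x = DD N H (a, b) x y (l x)) : Psh (E + 1) φ where
  cont x hx := by
    have h1 := idx_ne hx
    refine (DD_cont hH (α := (idx x, b)) continuousAt_id continuousAt_const
      hl.continuous.continuousAt h1 hy).congr ?_
    filter_upwards [(continuous_apply (idx x)).continuousAt.eventually_ne h1] with z hz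
    exact (hφ z _ hz).symm
  nonneg := h0
  hom c x hc hx := by
    have h1 := idx_ne hx
    rw [hφ x _ h1, hφ (c • x) (idx x) (by simp [hc, h1]), DD, DD, pt_smul_x _ _ _ hc, ← norm_pow,
      ← dn_smul]
    congr 1
    funext i
    fin_cases i
    · simp only [cov, Fin.zero_eta, Matrix.cons_val_zero, Pi.smul_apply, smul_eq_mul, mul_pow]
      linear_combination (c * x (idx x) * y b * (x (idx x) ^ N) ^ 3 * ((y b ^ N)⁻¹) ^ 3) * e0 c x
    · simp only [cov, Fin.mk_one, Matrix.cons_val_one, Matrix.cons_val_zero, Pi.smul_apply,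
        smul_eq_mul, e1]
      ring
  nm x hx := by
    have h1 := idx_ne hx
    generalize idx x = a at h1
    refine ⟨x a • Pi.single (a + 1) 1, fun κ hκ hκ0 hmax => ?_⟩
    have k1 : ∀ t : ℂ, (x + t • x a • (Pi.single (a + 1) 1 : V)) a = x a := by
      intro t; fin_cases a <;> simp
    have k2 : ∀ t : ℂ, pt (a, b) (x + t • x a • (Pi.single (a + 1) 1 : V)) y =
        pt (a, b) x y + t • ![1, 0] := by
      intro t
      funext i
      fin_cases i
      · simp only [pt, k1]; simp; field_simp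
      · simp [pt]
    refine no_max hH hG (a, b) (pt (a, b) x y) ![1, 0] (by simp)
      (l := fun t => κ t • cov N (a, b) (x + t • x a • (Pi.single (a + 1) 1 : V)) y
        (l (x + t • x a • (Pi.single (a + 1) 1 : V)))) (fun i => ?_) ?_ ?_
    · have : ∀ j, AnalyticAt ℂ (fun t : ℂ => l (x + t • x a • (Pi.single (a + 1) 1 : V)) j) 0 :=
        fun j => Differentiable.analyticAt (by fun_prop) 0
      have a0 := this 0
      have a1 := this 1
      simp only [cov, k1]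
      fin_cases i
      exacts [hκ.mul (analyticAt_const.mul ((a0.mul analyticAt_const).mul analyticAt_const)),
        hκ.mul (analyticAt_const.mul (a1.mul analyticAt_const))]
    · simpa [hκ0] using cov_ne N (α := (a, b)) h1 hy (hl0 x hx)
    · convert hmax using 2 with t
      rw [dn_smul, hφ _ a (by rwa [k1]), DD, k2]

theorem psh_y {φ : V → ℝ} {x : V} {a : Fin 2} (hx : x a ≠ 0) {l : Fin 2 → V → V}
    (hl : ∀ b, Differentiable ℂ (l b)) (hl0 : ∀ b y, y b ≠ 0 → l b y ≠ 0) {E : ℕ}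
    (e0 : ∀ b (c : ℂ) y, l b (c • y) 0 = (c ^ N) ^ 3 * c ^ E * l b y 0)
    (e1 : ∀ b (c : ℂ) y, l b (c • y) 1 = (c ^ N) ^ 2 * c ^ E * l b y 1) (h0 : ∀ y, 0 ≤ φ y)
    (hφ : ∀ y b, y b ≠ 0 → φ y = DD N H (a, b) x y (l b y)) : Psh (E + 1) φ where
  cont y hy := by
    have h1 := idx_ne hy
    refine (DD_cont hH (α := (a, idx y)) continuousAt_const continuousAt_id
      (hl (idx y)).continuous.continuousAt hx h1).congr ?_
    filter_upwards [(continuous_apply (idx y)).continuousAt.eventually_ne h1] with z hz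
    exact (hφ z _ hz).symm
  nonneg := h0
  hom c y hc hy := by
    have h1 := idx_ne hy
    rw [hφ y _ h1, hφ (c • y) (idx y) (by simp [hc, h1]), DD, DD, pt_smul_y _ _ _ hc, ← norm_pow,
      ← dn_smul]
    congr 1
    have := pow_ne_zero N hc
    funext i
    fin_cases i
    · simp only [cov, Fin.zero_eta, Matrix.cons_val_zero, Pi.smul_apply, smul_eq_mul, mul_pow, e0]
      field_simp
      ring
    · simp only [cov, Fin.mk_one, Matrix.cons_val_one, Matrix.cons_val_zero, Pi.smul_apply,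
        smul_eq_mul, e1, mul_pow]
      field_simp
      ring
  nm y hy := by
    have h1 := idx_ne hy
    generalize idx y = b at h1
    refine ⟨y b • Pi.single (b + 1) 1, fun κ hκ hκ0 hmax => ?_⟩
    have k1 : ∀ t : ℂ, (y + t • y b • (Pi.single (b + 1) 1 : V)) b = y b := by
      intro t; fin_cases b <;> simp
    have k2 : ∀ t : ℂ, pt (a, b) x (y + t • y b • (Pi.single (b + 1) 1 : V)) =
        pt (a, b) x y + t • ![0, 1] := by
      intro t
      funext i
      fin_cases i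
      · simp [pt]
      · simp only [pt, k1]; simp; field_simp
    refine no_max hH hG (a, b) (pt (a, b) x y) ![0, 1] (by simp)
      (l := fun t => κ t • cov N (a, b) x (y + t • y b • (Pi.single (b + 1) 1 : V))
        (l b (y + t • y b • (Pi.single (b + 1) 1 : V)))) (fun i => ?_) ?_ ?_
    · have hb := hl b
      have : ∀ j, AnalyticAt ℂ (fun t : ℂ => l b (y + t • y b • (Pi.single (b + 1) 1 : V)) j) 0 :=
        fun j => Differentiable.analyticAt (by fun_prop) 0
      have a0 := this 0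
      have a1 := this 1
      simp only [cov, k1]
      fin_cases i
      exacts [hκ.mul (analyticAt_const.mul ((a0.mul analyticAt_const).mul analyticAt_const)),
        hκ.mul (analyticAt_const.mul (a1.mul analyticAt_const))]
    · simpa [hκ0] using cov_ne N (α := (a, b)) hx h1 (hl0 b y h1)
    · convert hmax using 2 with t
      rw [dn_smul, hφ _ b (by rwa [k1]), DD, k2]

end

theorem Psh.const_mul {D : ℕ} {φ : V → ℝ} (h : Psh D φ) {c : ℝ} (hc : 0 < c) :
    Psh D (fun z => c * φ z) where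
  cont z hz := continuousAt_const.mul (h.cont z hz)
  nonneg z := mul_nonneg hc.le (h.nonneg z)
  hom a z ha hz := by rw [h.hom a z ha hz]; ring
  nm z hz := by
    obtain ⟨ξ, hξ⟩ := h.nm z hz
    refine ⟨ξ, fun κ h1 h2 h3 => hξ (fun t => c * κ t) (analyticAt_const.mul h1)
      (by simp [h2, hc.ne']) ?_⟩
    convert h3 using 2 with t
    simp [abs_of_pos hc]; ring

/-- `f(π_N x, π_N y)` -/
abbrev fN (N : ℕ) (x y : V) : ℂ := fT.ev om (pw N x) (pw N y)
/-- `p_b(π_N x, π_N y)` -/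
abbrev pN (N : ℕ) (b : Fin 2) (x y : V) : ℂ := (pT b).ev om (pw N x) (pw N y)

structure Sys (N : ℕ) (A1 A2 : V → V → ℝ) (A3 : Fin 2 → V → V → ℝ) : Prop where
  p1x : ∀ y, y ≠ 0 → Psh (6 * N + 1) (fun x => A1 x y)
  p1y : ∀ x, x ≠ 0 → Psh 1 (A1 x)
  p2x : ∀ y, y ≠ 0 → Psh 1 (fun x => A2 x y)
  p2y : ∀ x, x ≠ 0 → Psh (6 * N + 1) (A2 x)
  p3 : ∀ b y, y b ≠ 0 → Psh (3 * N + 1) (fun x => A3 b x y)
  t1 : ∀ b x y, x ≠ 0 → y b ≠ 0 → ‖pw N y b ^ 8‖ * A1 x y ≤
    ‖fN N x y * pw N y b ^ 8‖ * A3 b x y + ‖pN N b x y‖ * A2 x y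
  t2 : ∀ b x y, x ≠ 0 → y b ≠ 0 → ‖pN N b x y‖ * A2 x y ≤
    ‖fN N x y * pw N y b ^ 8‖ * A3 b x y + ‖pw N y b ^ 8‖ * A1 x y
  t3 : ∀ b x y, x ≠ 0 → y b ≠ 0 → ‖fN N x y * pw N y b ^ 8‖ * A3 b x y ≤
    ‖pw N y b ^ 8‖ * A1 x y + ‖pN N b x y‖ * A2 x y

theorem Sys.const_mul {A1 A2 : V → V → ℝ} {A3 : Fin 2 → V → V → ℝ} (h : Sys N A1 A2 A3) {c : ℝ}
    (hc : 0 < c) : Sys N (fun x y => c * A1 x y) (fun x y => c * A2 x y)
      (fun b x y => c * A3 b x y) where
  p1x y hy := (h.p1x y hy).const_mul hc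
  p1y y hy := (h.p1y y hy).const_mul hc
  p2x y hy := (h.p2x y hy).const_mul hc
  p2y y hy := (h.p2y y hy).const_mul hc
  p3 b y hy := (h.p3 b y hy).const_mul hc
  t1 b x y hx hy := by linarith [mul_le_mul_of_nonneg_left (h.t1 b x y hx hy) hc.le]
  t2 b x y hx hy := by linarith [mul_le_mul_of_nonneg_left (h.t2 b x y hx hy) hc.le]
  t3 b x y hx hy := by linarith [mul_le_mul_of_nonneg_left (h.t3 b x y hx hy) hc.le]

def L1 (N : ℕ) (b : Fin 2) (x y : V) : V := ![fN N x y, pN N b x y]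
def L2 (N : ℕ) (b : Fin 2) (y : V) : V := ![0, pw N y b ^ 8]

theorem L1_ne (b : Fin 2) {x y : V} (hx : x ≠ 0) (hy : y b ≠ 0) : L1 N b x y ≠ 0 := by
  intro h
  have h0 : fN N x y = 0 := congrFun h 0
  have h1 : pN N b x y = 0 := congrFun h 1
  have := id_r om_sq (pw N x) (pw N y) (idx x) b
  simp only [fN, pN] at h0 h1
  simp [h0, h1, idx_ne hx, hy] at this

theorem L2_ne (b : Fin 2) {y : V} (hy : y b ≠ 0) : L2 N b y ≠ 0 := by
  intro h
  have h1 := congrFun h 1
  simp [L2, hy] at h1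

theorem diff_pair {Z : Type*} [NormedAddCommGroup Z] [NormedSpace ℂ Z] {F G : Z → ℂ}
    (hF : Differentiable ℂ F) (hG : Differentiable ℂ G) :
    Differentiable ℂ (fun z => (![F z, G z] : V)) := by
  refine differentiable_pi.2 fun i => ?_
  fin_cases i
  exacts [hF, hG]

variable (N H) in
def AA1 (x y : V) : ℝ := DD N H (idx x, idx y) x y (L1 N (idx y) x y)
variable (N H) in
def AA2 (x y : V) : ℝ := DD N H (idx x, idx y) x y (L2 N (idx y) y)
variable (N H) in
def AA3 (b : Fin 2) (x y : V) : ℝ := DD N H (idx x, b) x y ![1, 0]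

theorem ne_of_apply {x : V} {a : Fin 2} (h : x a ≠ 0) : x ≠ 0 := by
  rintro rfl; exact h rfl

theorem dL1 (b : Fin 2) : Differentiable ℂ (fun q : V × V => L1 N b q.1 q.2) :=
  diff_pair (by fun_prop) (by fun_prop)

theorem dL2 (b : Fin 2) : Differentiable ℂ (L2 N b) := diff_pair (by fun_prop) (by fun_prop)

theorem Lrel (b : Fin 2) (x y : V) : (pw N y b ^ 8) • L1 N b x y =
    (fN N x y * pw N y b ^ 8) • ![1, 0] + pN N b x y • L2 N b y := by
  funext i; fin_cases i <;> simp [L1, L2, mul_comm]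

section
variable (hH : IsHermitianMetric (gE N) H)
include hH

theorem q1 (x y : V) (a b : Fin 2) (h1 : x a ≠ 0) (h2 : y b ≠ 0) :
    AA1 N H x y = DD N H (a, b) x y (L1 N b x y) :=
  DD_eq hH (α := (a, b)) (β := (idx x, idx y)) h1 h2 (idx_ne (ne_of_apply h1))
    (idx_ne (ne_of_apply h2)) rfl (id_pw om_sq (pw N x) (pw N y) b (idx y))

theorem q2 (x y : V) (a b : Fin 2) (h1 : x a ≠ 0) (h2 : y b ≠ 0) :
    AA2 N H x y = DD N H (a, b) x y (L2 N b y) :=
  DD_eq hH (α := (a, b)) (β := (idx x, idx y)) h1 h2 (idx_ne (ne_of_apply h1))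
    (idx_ne (ne_of_apply h2)) rfl (by simp [L2, mul_comm])

theorem q3 (x y : V) (a b : Fin 2) (h1 : x a ≠ 0) (h2 : y b ≠ 0) :
    AA3 N H b x y = DD N H (a, b) x y ![1, 0] :=
  DD_eq hH (α := (a, b)) (β := (idx x, b)) h1 h2 (idx_ne (ne_of_apply h1)) h2 rfl (by simp [sg])

theorem AA_cont {x y : V} (hx : x ≠ 0) (hy : y ≠ 0) :
    ContinuousAt (fun q : V × V => max (AA1 N H q.1 q.2) (AA2 N H q.1 q.2)) (x, y) := by
  have h1 := idx_ne hx
  have h2 := idx_ne hy
  have ev : ∀ᶠ q : V × V in 𝓝 (x, y), q.1 (idx x) ≠ 0 ∧ q.2 (idx y) ≠ 0 :=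
    (ContinuousAt.eventually_ne (g := fun q : V × V => q.1 (idx x)) (by fun_prop) h1).and
      (ContinuousAt.eventually_ne (g := fun q : V × V => q.2 (idx y)) (by fun_prop) h2)
  refine ContinuousAt.sup ?_ ?_
  · refine (DD_cont hH (α := (idx x, idx y)) continuousAt_fst continuousAt_snd
      (dL1 (N := N) (idx y)).continuous.continuousAt h1 h2).congr ?_
    filter_upwards [ev] with q hq using (q1 hH _ _ _ _ hq.1 hq.2).symm
  · refine (DD_cont hH (α := (idx x, idx y)) continuousAt_fst continuousAt_snd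
      ((dL2 (N := N) (idx y)).continuous.comp continuous_snd).continuousAt h1 h2).congr ?_
    filter_upwards [ev] with q hq using (q2 hH _ _ _ _ hq.1 hq.2).symm

variable (hG : IsGriffithsPositive H)
include hG

theorem AA_sys : Sys N (AA1 N H) (AA2 N H) (AA3 N H) where
  p1x y hy := by
    refine psh_x hH hG (idx_ne hy) (l := fun x => L1 N (idx y) x y)
      (diff_pair (by fun_prop) (by fun_prop))
      (fun x hx => L1_ne _ hx (idx_ne hy)) (fun c x => ?_) (fun c x => ?_)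
      (fun x => DD_nonneg _ _ _ _) (fun x a h => q1 hH x y a _ h (idx_ne hy))
    · simp only [L1, fN, pw_smul, BiF.ev_smul_left, Matrix.cons_val_zero]; ring
    · simp only [L1, pN, pw_smul, BiF.ev_smul_left, Matrix.cons_val_one,
        Matrix.cons_val_zero]; ring
  p1y x hx := by
    refine psh_y (E := 0) hH hG (idx_ne hx) (l := fun b y => L1 N b x y)
      (fun b => diff_pair (by fun_prop) (by fun_prop))
      (fun b y hy => L1_ne _ hx hy) (fun b c y => ?_) (fun b c y => ?_)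
      (fun x => DD_nonneg _ _ _ _) (fun y b h => q1 hH x y _ b (idx_ne hx) h)
    · simp only [L1, fN, pw_smul, BiF.ev_smul_right, Matrix.cons_val_zero]; ring
    · simp only [L1, pN, pw_smul, BiF.ev_smul_right, Matrix.cons_val_one,
        Matrix.cons_val_zero]; ring
  p2x y hy := psh_x (E := 0) hH hG (idx_ne hy) (l := fun x => L2 N (idx y) y)
      (differentiable_const _) (fun x hx => L2_ne _ (idx_ne hy))
      (fun c x => by simp [L2]) (fun c x => by simp)
      (fun x => DD_nonneg _ _ _ _) (fun x a h => q2 hH x y a _ h (idx_ne hy))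
  p2y x hx := psh_y hH hG (idx_ne hx) (l := L2 N) dL2 (fun b y hy => L2_ne _ hy)
      (fun b c y => by simp [L2]) (fun b c y => by simp [L2]; ring)
      (fun x => DD_nonneg _ _ _ _) (fun y b h => q2 hH x y _ b (idx_ne hx) h)
  p3 b y hy := psh_x hH hG hy (l := fun x => ![1, 0]) (differentiable_const _)
      (fun x hx => by simp) (fun c x => by simp; ring) (fun c x => by simp)
      (fun x => DD_nonneg _ _ _ _) (fun x a h => q3 hH x y a _ h hy)
  t1 b x y hx hy := by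
    rw [q1 hH x y _ b (idx_ne hx) hy, q2 hH x y _ b (idx_ne hx) hy, q3 hH x y _ b (idx_ne hx) hy,
      ← DD_smul, ← DD_smul, ← DD_smul, Lrel]
    exact DD_add hH _ _ _ _ _
  t2 b x y hx hy := by
    rw [q1 hH x y _ b (idx_ne hx) hy, q2 hH x y _ b (idx_ne hx) hy, q3 hH x y _ b (idx_ne hx) hy,
      ← norm_neg (fN N x y * pw N y b ^ 8), ← DD_smul, ← DD_smul, ← DD_smul]
    refine le_of_eq_of_le ?_ (DD_add hH _ _ _ _ _)
    rw [Lrel, neg_smul, neg_add_cancel_left]
  t3 b x y hx hy := by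
    rw [q1 hH x y _ b (idx_ne hx) hy, q2 hH x y _ b (idx_ne hx) hy, q3 hH x y _ b (idx_ne hx) hy,
      ← norm_neg (pN N b x y), ← DD_smul, ← DD_smul, ← DD_smul]
    refine le_of_eq_of_le ?_ (DD_add hH _ _ _ _ _)
    rw [Lrel, neg_smul, add_neg_cancel_right]

theorem exists_sys :
    ∃ A1 A2 A3, Sys N A1 A2 A3 ∧ (∀ x y, ‖x‖ = 1 → ‖y‖ = 1 → A1 x y ≤ 1 ∧ A2 x y ≤ 1) ∧
      ∃ x y, ‖x‖ = 1 ∧ ‖y‖ = 1 ∧ (A1 x y = 1 ∨ A2 x y = 1) := by
  have ne0 : ∀ w : V, w ∈ Metric.sphere (0 : V) 1 → w ≠ 0 := by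
    rintro w hw rfl; simp at hw
  have hcont : ContinuousOn (fun q : V × V => max (AA1 N H q.1 q.2) (AA2 N H q.1 q.2))
      (Metric.sphere (0 : V) 1 ×ˢ Metric.sphere (0 : V) 1) := by
    rintro ⟨x, y⟩ ⟨hx, hy⟩
    exact (AA_cont hH (ne0 x hx) (ne0 y hy)).continuousWithinAt
  obtain ⟨⟨x, y⟩, ⟨hx, hy⟩, hmax⟩ :=
    ((isCompact_sphere (0 : V) 1).prod (isCompact_sphere (0 : V) 1)).exists_isMaxOn
      ⟨(1, 1), by simp⟩ hcont
  obtain ⟨M, hM⟩ : ∃ M, M = max (AA1 N H x y) (AA2 N H x y) := ⟨_, rfl⟩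
  have hMpos : 0 < M := hM ▸ lt_max_of_lt_right
    (DD_pos hH (idx_ne (ne0 x hx)) (idx_ne (ne0 y hy)) (L2_ne _ (idx_ne (ne0 y hy))))
  refine ⟨_, _, _, (AA_sys hH hG).const_mul (inv_pos.2 hMpos), fun x' y' h1 h2 => ?_,
    x, y, by simpa using hx, by simpa using hy, ?_⟩
  · have := hmax (a := (x', y')) ⟨by simpa using h1, by simpa using h2⟩
    simp only [Set.mem_ofPred_eq, ← hM, max_le_iff] at this
    exact ⟨(inv_mul_le_one₀ hMpos).2 this.1, (inv_mul_le_one₀ hMpos).2 this.2⟩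
  · rcases max_choice (AA1 N H x y) (AA2 N H x y) with e | e
    · left; rw [← e, ← hM]; exact inv_mul_cancel₀ hMpos.ne'
    · right; rw [← e, ← hM]; exact inv_mul_cancel₀ hMpos.ne'

end

end Crest.Agent.R258
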